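import Mathlib

/-! Bang's plank theorem in the plane (for convex sets having a chord of length `w` in every
direction). -/

open Set Finset

namespace Vale.Agent.P243

/-- the Euclidean inner product on `ℝ × ℝ` -/
def dot (n p : ℝ × ℝ) : ℝ := n.1 * p.1 + n.2 * p.2

/-- sign attached to a Boolean -/
def sb (b : Bool) : ℝ := if b then 1 else -1

lemma sb_pm (b : Bool) : sb b = 1 ∨ sb b = -1 := by
  cases b <;> simp [sb]

lemma sb_not (b : Bool) : sb (!b) = - sb b := by
  cases b <;> simp [sb]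

lemma sum_flip {κ : Type*} [Fintype κ] [DecidableEq κ] (ε : κ → Bool) (j : κ) (a : κ → ℝ) :
    ∑ k, sb (Function.update ε j (!ε j) k) * a k = ∑ k, sb (ε k) * a k - 2 * sb (ε j) * a j := by
  rw [← Finset.add_sum_erase univ _ (Finset.mem_univ j),
    ← Finset.add_sum_erase univ (fun k => sb (ε k) * a k) (Finset.mem_univ j)]
  have h1 : ∑ k ∈ univ.erase j, sb (Function.update ε j (!ε j) k) * a k
      = ∑ k ∈ univ.erase j, sb (ε k) * a k := by
    refine Finset.sum_congr rfl (fun k hk => ?_)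
    rw [Function.update_of_ne (Finset.ne_of_mem_erase hk)]
  rw [h1, Function.update_self, sb_not]
  ring

/-- Bang's lemma. -/
lemma bang_sign {κ : Type*} [Fintype κ] (n : κ → ℝ × ℝ) (hn : ∀ k, (n k).1 ^ 2 + (n k).2 ^ 2 = 1)
    (h : κ → ℝ) (hh : ∀ k, 0 ≤ h k) (m : κ → ℝ) :
    ∃ ε : κ → ℝ, (∀ k, ε k = 1 ∨ ε k = -1) ∧
      ∀ j, h j ≤ |dot (n j) (∑ k, (ε k * h k) • n k) - m j| := by
  classical
  set x1 : (κ → Bool) → ℝ := fun ε => ∑ k, sb (ε k) * (h k * (n k).1) with hx1
  set x2 : (κ → Bool) → ℝ := fun ε => ∑ k, sb (ε k) * (h k * (n k).2) with hx2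
  set y : (κ → Bool) → ℝ := fun ε => ∑ k, sb (ε k) * (h k * m k) with hy
  obtain ⟨ε, hε⟩ := Finite.exists_max (fun ε : κ → Bool => x1 ε ^ 2 + x2 ε ^ 2 - 2 * y ε)
  refine ⟨fun k => sb (ε k), fun k => sb_pm _, fun j => ?_⟩
  have hvec : (∑ k, (sb (ε k) * h k) • n k) = (x1 ε, x2 ε) := by
    ext
    · simp only [Prod.fst_sum, Prod.smul_fst, smul_eq_mul, hx1]
      exact Finset.sum_congr rfl (fun k _ => by ring)
    · simp only [Prod.snd_sum, Prod.smul_snd, smul_eq_mul, hx2]
      exact Finset.sum_congr rfl (fun k _ => by ring)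
  rw [hvec]
  unfold dot
  have hmax := hε (Function.update ε j (!ε j))
  simp only [hx1, hx2, hy, sum_flip] at hmax
  set X1 := ∑ k, sb (ε k) * (h k * (n k).1) with hX1
  set X2 := ∑ k, sb (ε k) * (h k * (n k).2) with hX2
  set Y := ∑ k, sb (ε k) * (h k * m k) with hY
  have e1 : x1 ε = X1 := rfl
  have e2 : x2 ε = X2 := rfl
  rw [e1, e2]
  set σ := sb (ε j) with hσ
  have hσ2 : σ * σ = 1 := by rcases sb_pm (ε j) with h1 | h1 <;> rw [hσ, h1] <;> norm_num
  have hnj := hn j
  rcases (hh j).eq_or_lt with h0 | hpos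
  · rw [← h0]; exact abs_nonneg _
  · have key : h j * h j ≤ h j * (σ * ((n j).1 * X1 + (n j).2 * X2 - m j)) := by
      have hexp : (X1 - 2 * σ * (h j * (n j).1)) ^ 2 + (X2 - 2 * σ * (h j * (n j).2)) ^ 2
          - 2 * (Y - 2 * σ * (h j * m j))
          = X1 ^ 2 + X2 ^ 2 - 2 * Y - 4 * (h j * (σ * ((n j).1 * X1 + (n j).2 * X2 - m j)))
            + 4 * (σ * σ) * (h j * h j) * ((n j).1 ^ 2 + (n j).2 ^ 2) := by ring
      rw [hexp, hσ2, hnj] at hmax
      linarith
    have key2 : h j ≤ σ * ((n j).1 * X1 + (n j).2 * X2 - m j) := le_of_mul_le_mul_left key hpos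
    rcases sb_pm (ε j) with h1 | h1
    · rw [hσ, h1, one_mul] at key2
      exact key2.trans (le_abs_self _)
    · rw [hσ, h1] at key2
      have : -1 * ((n j).1 * X1 + (n j).2 * X2 - m j) = -((n j).1 * X1 + (n j).2 * X2 - m j) := by
        ring
      rw [this] at key2
      exact key2.trans (neg_le_abs _)

/-- A convex set with a chord of length `w` in every direction contains a translate of all signed
sums of vectors of total length less than `w / 2`. -/
lemma translate {κ : Type*} [DecidableEq κ] (n : κ → ℝ × ℝ)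
    (hn : ∀ k, (n k).1 ^ 2 + (n k).2 ^ 2 = 1) (h : κ → ℝ) (hh : ∀ k, 0 ≤ h k) (s : Finset κ) :
    ∀ (P : Set (ℝ × ℝ)) (_ : Convex ℝ P) (w : ℝ)
      (_ : ∀ e : ℝ × ℝ, e.1 ^ 2 + e.2 ^ 2 = 1 → ∃ a ∈ P, a + w • e ∈ P)
      (_ : ∑ k ∈ s, 2 * h k < w),
      ∃ c : ℝ × ℝ, ∀ ε : κ → ℝ, (∀ k, ε k = 1 ∨ ε k = -1) → c + ∑ k ∈ s, (ε k * h k) • n k ∈ P := by
  induction s using Finset.induction_on with
  | empty =>
    intro P _ w hch _
    obtain ⟨a, ha, _⟩ := hch (1, 0) (by norm_num)
    exact ⟨a, fun ε _ => by simpa using ha⟩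
  | insert j s hj ih =>
    intro P hP w hch hsum
    rw [Finset.sum_insert hj] at hsum
    have hs0 : 0 ≤ ∑ k ∈ s, 2 * h k := Finset.sum_nonneg (fun k _ => by linarith [hh k])
    have hw : 0 < w := by linarith [hh j]
    obtain ⟨a, ha, ha'⟩ := hch (n j) (hn j)
    set lam : ℝ := 2 * h j / w with hlam
    have hlam0 : 0 ≤ lam := div_nonneg (by linarith [hh j]) hw.le
    have hlam1 : lam < 1 := by rw [hlam, div_lt_one hw]; linarith
    have hlamw : lam * w = 2 * h j := by rw [hlam]; field_simp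
    set mid : ℝ × ℝ := a + (w / 2) • n j with hmid
    set P' : Set (ℝ × ℝ) := (fun x => (1 - lam) • x + lam • mid) '' P with hP'
    have hP'conv : Convex ℝ P' := by
      have h1 : P' = (fun x => lam • mid + x) '' ((fun x => (1 - lam) • x) '' P) := by
        rw [hP', Set.image_image]
        refine Set.image_congr (fun x _ => ?_)
        rw [add_comm]
      rw [h1]
      exact (hP.smul (1 - lam)).translate _
    obtain ⟨c, hc⟩ := ih P' hP'conv (w - 2 * h j) (by
      intro e he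
      obtain ⟨b, hb, hb'⟩ := hch e he
      refine ⟨(1 - lam) • b + lam • mid, ⟨b, hb, rfl⟩, ⟨b + w • e, hb', ?_⟩⟩
      have : w - 2 * h j = (1 - lam) * w := by rw [← hlamw]; ring
      rw [this]
      simp only [smul_add, smul_smul]
      abel) (by linarith)
    refine ⟨c, fun ε hε => ?_⟩
    obtain ⟨x, hx, hxe⟩ := hc ε hε
    rw [Finset.sum_insert hj]
    have hre : c + ((ε j * h j) • n j + ∑ k ∈ s, (ε k * h k) • n k)
        = ((1 - lam) • x + lam • mid) + (ε j * h j) • n j := by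
      have hxe' : (1 - lam) • x + lam • mid = c + ∑ k ∈ s, (ε k * h k) • n k := hxe
      rw [hxe']; abel
    rw [hre]
    rcases hε j with h1 | h1
    · have : ((1 - lam) • x + lam • mid) + (ε j * h j) • n j
          = (1 - lam) • x + lam • (a + w • n j) := by
        rw [h1, hmid]
        ext
        · simp only [Prod.fst_add, Prod.smul_fst, smul_eq_mul]
          linear_combination (-(n j).1 / 2) * hlamw
        · simp only [Prod.snd_add, Prod.smul_snd, smul_eq_mul]
          linear_combination (-(n j).2 / 2) * hlamw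
      rw [this]
      exact hP hx ha' (by linarith) hlam0 (by ring)
    · have : ((1 - lam) • x + lam • mid) + (ε j * h j) • n j = (1 - lam) • x + lam • a := by
        rw [h1, hmid]
        ext
        · simp only [Prod.fst_add, Prod.smul_fst, smul_eq_mul]
          linear_combination ((n j).1 / 2) * hlamw
        · simp only [Prod.snd_add, Prod.smul_snd, smul_eq_mul]
          linear_combination ((n j).2 / 2) * hlamw
      rw [this]
      exact hP hx ha (by linarith) hlam0 (by ring)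

lemma dot_add (n p q : ℝ × ℝ) : dot n (p + q) = dot n p + dot n q := by
  unfold dot; simp only [Prod.fst_add, Prod.snd_add]; ring

/-- Bang's plank theorem in the plane. -/
theorem plank {κ : Type*} [Fintype κ] (P : Set (ℝ × ℝ)) (hP : Convex ℝ P) (w : ℝ)
    (hch : ∀ e : ℝ × ℝ, e.1 ^ 2 + e.2 ^ 2 = 1 → ∃ a ∈ P, a + w • e ∈ P)
    (n : κ → ℝ × ℝ) (hn : ∀ k, (n k).1 ^ 2 + (n k).2 ^ 2 = 1) (a b : κ → ℝ)
    (hab : ∀ k, a k ≤ b k) (hsum : ∑ k, (b k - a k) < w) :
    ∃ p ∈ P, ∀ k, dot (n k) p ∉ Icc (a k) (b k) := by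
  classical
  set N : ℝ := (Fintype.card κ : ℝ) with hN
  set δ : ℝ := (w - ∑ k, (b k - a k)) / (2 * (N + 1)) with hδ
  have hNpos : (0 : ℝ) < 2 * (N + 1) := by positivity
  have hδpos : 0 < δ := div_pos (by linarith) hNpos
  set h : κ → ℝ := fun k => (b k - a k) / 2 + δ with hh
  have hh0 : ∀ k, 0 ≤ h k := fun k => by simp only [hh]; linarith [hab k]
  have hsum2 : ∑ k ∈ (univ : Finset κ), 2 * h k < w := by
    have h1 : ∑ k ∈ (univ : Finset κ), 2 * h k = ∑ k, (b k - a k) + 2 * N * δ := by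
      simp only [hh, mul_add, Finset.sum_add_distrib, Finset.sum_const, Finset.card_univ,
        nsmul_eq_mul]
      rw [hN]
      congr 1
      · exact Finset.sum_congr rfl (fun k _ => by ring)
      · ring
    rw [h1]
    have h2 : 2 * (N + 1) * δ = w - ∑ k, (b k - a k) := by
      rw [hδ]; exact mul_div_cancel₀ _ hNpos.ne'
    nlinarith
  obtain ⟨c, hc⟩ := translate n hn h hh0 univ P hP w hch hsum2
  obtain ⟨ε, hε, hb⟩ := bang_sign n hn h hh0 (fun k => (a k + b k) / 2 - dot (n k) c)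
  refine ⟨_, hc ε hε, fun k hk => ?_⟩
  have h1 := hb k
  rw [dot_add] at hk
  have h2 : dot (n k) (∑ k, (ε k * h k) • n k) - ((a k + b k) / 2 - dot (n k) c)
      = (dot (n k) c + dot (n k) (∑ k, (ε k * h k) • n k)) - (a k + b k) / 2 := by ring
  rw [h2] at h1
  have h3 : |(dot (n k) c + dot (n k) (∑ k, (ε k * h k) • n k)) - (a k + b k) / 2|
      ≤ (b k - a k) / 2 := by
    rw [abs_le]
    constructor <;> linarith [hk.1, hk.2]
  simp only [hh] at h1
  linarith

end Vale.Agent.P243
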