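import Vale.Agent.P243.PlankMeas

/-! From widths to chords, and slices of a convex body. -/

open Set MeasureTheory
open scoped Pointwise

namespace Vale.Agent.P243

lemma dual_apply (f : StrongDual ℝ (ℝ × ℝ)) (x : ℝ × ℝ) :
    f x = x.1 * f (1, 0) + x.2 * f (0, 1) := by
  have hx : x = x.1 • ((1 : ℝ), (0 : ℝ)) + x.2 • ((0 : ℝ), (1 : ℝ)) := by
    ext <;> simp
  conv_lhs => rw [hx]
  rw [map_add, map_smul, map_smul, smul_eq_mul, smul_eq_mul]

/-- A compact convex planar set all of whose widths are at least `w` has a chord of length `w` in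
every direction. -/
lemma chord_of_width (P : Set (ℝ × ℝ)) (hP : Convex ℝ P) (hPc : IsCompact P) (w : ℝ) (hw : 0 ≤ w)
    (hwid : ∀ m : ℝ × ℝ, m.1 ^ 2 + m.2 ^ 2 = 1 → ∃ p ∈ P, ∃ q ∈ P, w ≤ dot m q - dot m p) :
    ∀ e : ℝ × ℝ, e.1 ^ 2 + e.2 ^ 2 = 1 → ∃ a ∈ P, a + w • e ∈ P := by
  intro e he
  by_contra hcon
  have hnot : w • e ∉ P - P := by
    intro hmem
    obtain ⟨q, hq, p, hp, hqp⟩ := Set.mem_sub.1 hmem
    exact hcon ⟨p, hp, by rw [← hqp]; simpa using hq⟩
  have hC : IsCompact (P - P) := by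
    rw [sub_eq_add_neg]
    exact hPc.add hPc.neg
  obtain ⟨f, u, hfu, huf⟩ := geometric_hahn_banach_closed_point (hP.sub hP) hC.isClosed hnot
  obtain ⟨p0, hp0, _⟩ := hwid (1, 0) (by norm_num)
  have h0 : f 0 < u := hfu 0 (Set.mem_sub.2 ⟨p0, hp0, p0, hp0, sub_self _⟩)
  rw [map_zero] at h0
  set α := f (1, 0) with hα
  set β := f (0, 1) with hβ
  have hfe : f (w • e) = w * (e.1 * α + e.2 * β) := by
    rw [map_smul, smul_eq_mul, dual_apply f e]
  set r := Real.sqrt (α ^ 2 + β ^ 2) with hr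
  have hr2 : r ^ 2 = α ^ 2 + β ^ 2 := Real.sq_sqrt (by positivity)
  have hr0 : 0 ≤ r := Real.sqrt_nonneg _
  have hcs : e.1 * α + e.2 * β ≤ r := by
    apply abs_le_of_sq_le_sq' _ hr0 |>.2
    rw [hr2]
    nlinarith [sq_nonneg (e.1 * β - e.2 * α)]
  have hrpos : 0 < r := by
    rcases hr0.eq_or_lt with h | h
    · exfalso
      have : w * (e.1 * α + e.2 * β) ≤ w * r := mul_le_mul_of_nonneg_left hcs hw
      rw [← h, mul_zero] at this
      rw [hfe] at huf
      linarith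
    · exact h
  obtain ⟨p, hp, q, hq, hpq⟩ := hwid (α / r, β / r) (by
    simp only [div_pow]
    rw [← add_div, ← hr2]
    exact div_self (by positivity))
  have h1 : f (q - p) < u := hfu _ (Set.mem_sub.2 ⟨q, hq, p, hp, rfl⟩)
  have h2 : f (q - p) = r * (dot (α / r, β / r) q - dot (α / r, β / r) p) := by
    rw [map_sub, dual_apply f q, dual_apply f p]
    unfold dot
    simp only
    field_simp
    ring
  have h3 : r * w ≤ f (q - p) := by
    rw [h2]
    exact mul_le_mul_of_nonneg_left hpq hr0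
  have h4 : f (w • e) ≤ w * r := by
    rw [hfe]
    exact mul_le_mul_of_nonneg_left hcs hw
  linarith

/-- the horizontal slice of a subset of `ℝ³` at height `z` -/
def slice (K : Set (ℝ × ℝ × ℝ)) (z : ℝ) : Set (ℝ × ℝ) := {q | (q.1, q.2, z) ∈ K}

lemma slice_convex (K : Set (ℝ × ℝ × ℝ)) (hK : Convex ℝ K) (z : ℝ) : Convex ℝ (slice K z) := by
  intro x hx y hy a b ha hb hab
  have := hK hx hy ha hb hab
  unfold slice
  rw [Set.mem_ofPred_eq]
  convert this using 1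
  ext
  · simp
  · simp
  · simp only [Prod.snd_add, Prod.smul_snd, smul_eq_mul]
    rw [← add_mul, hab, one_mul]

lemma slice_compact (K : Set (ℝ × ℝ × ℝ)) (hK : IsCompact K) (z : ℝ) :
    IsCompact (slice K z) := by
  have hcz : Continuous (fun p : ℝ × ℝ × ℝ => p.2.2) := by fun_prop
  have h1 : IsCompact (K ∩ {p | p.2.2 = z}) := hK.inter_right (isClosed_eq hcz continuous_const)
  have hc : Continuous (fun p : ℝ × ℝ × ℝ => (p.1, p.2.1)) := by fun_prop
  have h2 : slice K z = (fun p : ℝ × ℝ × ℝ => (p.1, p.2.1)) '' (K ∩ {p | p.2.2 = z}) := by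
    ext q
    constructor
    · intro hq
      exact ⟨(q.1, q.2, z), ⟨hq, rfl⟩, rfl⟩
    · rintro ⟨p, ⟨hp, hpz⟩, rfl⟩
      have : p = (p.1, p.2.1, z) := by
        ext
        · rfl
        · rfl
        · exact hpz
      unfold slice
      rw [Set.mem_ofPred_eq]
      simp only
      rw [← this]
      exact hp
  rw [h2]
  exact h1.image hc

lemma slice_chord (K : Set (ℝ × ℝ × ℝ)) (hK : Convex ℝ K) (a0 : ℝ × ℝ × ℝ) (h0 : a0 ∈ K)
    (c w θ : ℝ) (hθ0 : 0 ≤ θ) (hθ1 : θ ≤ 1)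
    (hch : ∀ e : ℝ × ℝ, e.1 ^ 2 + e.2 ^ 2 = 1 → ∃ a ∈ slice K c, a + w • e ∈ slice K c) :
    ∀ e : ℝ × ℝ, e.1 ^ 2 + e.2 ^ 2 = 1 →
      ∃ a ∈ slice K (a0.2.2 + θ * (c - a0.2.2)),
        a + (θ * w) • e ∈ slice K (a0.2.2 + θ * (c - a0.2.2)) := by
  intro e he
  obtain ⟨a, ha, ha'⟩ := hch e he
  have key : ∀ b ∈ slice K c,
      (1 - θ) • ((a0.1, a0.2.1) : ℝ × ℝ) + θ • b ∈ slice K (a0.2.2 + θ * (c - a0.2.2)) := by
    intro b hb
    have := hK h0 hb (sub_nonneg.2 hθ1) hθ0 (by ring)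
    unfold slice
    rw [Set.mem_ofPred_eq]
    convert this using 1
    ext
    · simp
    · simp
    · simp only [Prod.snd_add, Prod.smul_snd, smul_eq_mul]
      ring
  refine ⟨_, key a ha, ?_⟩
  have := key _ ha'
  convert this using 1
  rw [smul_add, smul_smul, add_assoc]

end Vale.Agent.P243
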