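import Vale.Agent.P243.Slices

open MeasureTheory Set

namespace Vale.Agent.P243

lemma tent_lower (p q k : ℝ) (hpq : p < q) (hk : 0 ≤ k) :
    ∫⁻ z in Icc p q, ENNReal.ofReal ((z - p) / (q - p) * k)
      = ENNReal.ofReal ((q - p) / 2 * k) := by
  have hpos : 0 < q - p := sub_pos.2 hpq
  have hcont : Continuous (fun z : ℝ => (z - p) / (q - p) * k) := by fun_prop
  rw [← ofReal_integral_eq_lintegral_ofReal (hcont.integrableOn_Icc)
    ((ae_restrict_iff' measurableSet_Icc).2 (Filter.Eventually.of_forall (fun z hz =>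
      mul_nonneg (div_nonneg (sub_nonneg.2 hz.1) hpos.le) hk)))]
  congr 1
  rw [integral_Icc_eq_integral_Ioc, ← intervalIntegral.integral_of_le hpq.le]
  have hder : ∀ z ∈ uIcc p q, HasDerivAt (fun z : ℝ => (z - p) ^ 2 / (2 * (q - p)) * k)
      ((z - p) / (q - p) * k) z := by
    intro z _
    have h1 : HasDerivAt (fun z : ℝ => (z - p) ^ 2) (2 * (z - p)) z := by
      have := ((hasDerivAt_id' z).sub_const p).fun_pow 2
      simpa using this
    have h2 := (h1.div_const (2 * (q - p))).mul_const k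
    have e : (z - p) / (q - p) * k = 2 * (z - p) / (2 * (q - p)) * k := by field_simp
    rw [e]
    exact h2
  rw [intervalIntegral.integral_eq_sub_of_hasDerivAt hder (hcont.intervalIntegrable _ _)]
  field_simp
  ring

lemma tent_upper (p q k : ℝ) (hpq : p < q) (hk : 0 ≤ k) :
    ∫⁻ z in Icc p q, ENNReal.ofReal ((q - z) / (q - p) * k)
      = ENNReal.ofReal ((q - p) / 2 * k) := by
  have hpos : 0 < q - p := sub_pos.2 hpq
  have hcont : Continuous (fun z : ℝ => (q - z) / (q - p) * k) := by fun_prop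
  rw [← ofReal_integral_eq_lintegral_ofReal (hcont.integrableOn_Icc)
    ((ae_restrict_iff' measurableSet_Icc).2 (Filter.Eventually.of_forall (fun z hz =>
      mul_nonneg (div_nonneg (sub_nonneg.2 hz.2) hpos.le) hk)))]
  congr 1
  rw [integral_Icc_eq_integral_Ioc, ← intervalIntegral.integral_of_le hpq.le]
  have hder : ∀ z ∈ uIcc p q, HasDerivAt (fun z : ℝ => - (q - z) ^ 2 / (2 * (q - p)) * k)
      ((q - z) / (q - p) * k) z := by
    intro z _
    have h1 : HasDerivAt (fun z : ℝ => - (q - z) ^ 2) (2 * (q - z)) z := by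
      have := (((hasDerivAt_id' z).const_sub q).fun_pow 2).fun_neg
      simpa using this
    have h2 := (h1.div_const (2 * (q - p))).mul_const k
    have e : (q - z) / (q - p) * k = 2 * (q - z) / (2 * (q - p)) * k := by field_simp
    rw [e]
    exact h2
  rw [intervalIntegral.integral_eq_sub_of_hasDerivAt hder (hcont.intervalIntegrable _ _)]
  field_simp
  ring

/-- Integrating the slice bound over all heights. -/
lemma volume_bound (K : Set (ℝ × ℝ × ℝ)) (hK : Convex ℝ K) (B1 B2 : Set (ℝ × ℝ))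
    (hB1 : MeasurableSet B1) (hB2 : MeasurableSet B2)
    (hcov : ∀ p ∈ K, p.2 ∈ B1 ∨ (p.1, p.2.2) ∈ B2)
    (a0 a1 pL pR pB pT : ℝ × ℝ × ℝ) (h0 : a0 ∈ K) (h1 : a1 ∈ K) (hL : pL ∈ K) (hR : pR ∈ K)
    (hB : pB ∈ K) (hT : pT ∈ K) (c : ℝ) (hLc : pL.2.2 = c) (hRc : pR.2.2 = c) (hBc : pB.2.2 = c)
    (hTc : pT.2.2 = c) (hx : pL.1 < pR.1) (hy : pB.2.1 < pT.2.1)
    (hyl : pL.2.1 ∈ Icc pB.2.1 pT.2.1) (hyr : pR.2.1 ∈ Icc pB.2.1 pT.2.1)
    (hxb : pB.1 ∈ Icc pL.1 pR.1) (hxt : pT.1 ∈ Icc pL.1 pR.1)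
    (hc0 : a0.2.2 < c) (hc1 : c < a1.2.2) :
    ENNReal.ofReal ((a1.2.2 - a0.2.2) / 2 * ((pR.1 - pL.1) * (pT.2.1 - pB.2.1)))
      ≤ ENNReal.ofReal (pT.2.1 - pB.2.1) * volume B2
        + ENNReal.ofReal (pR.1 - pL.1) * volume B1 := by
  set k : ℝ := (pR.1 - pL.1) * (pT.2.1 - pB.2.1) with hk
  have hk0 : 0 ≤ k := mul_nonneg (sub_nonneg.2 hx.le) (sub_nonneg.2 hy.le)
  set g : ℝ → ENNReal := fun z =>
    ENNReal.ofReal (pT.2.1 - pB.2.1) * volume ((fun x : ℝ => (x, z)) ⁻¹' B2)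
      + ENNReal.ofReal (pR.1 - pL.1) * volume ((fun y : ℝ => (y, z)) ⁻¹' B1) with hg
  have hm1 : Measurable (fun z : ℝ => volume ((fun y : ℝ => (y, z)) ⁻¹' B1)) :=
    measurable_measure_prodMk_right hB1
  have hm2 : Measurable (fun z : ℝ => volume ((fun y : ℝ => (y, z)) ⁻¹' B2)) :=
    measurable_measure_prodMk_right hB2
  have hgint : ∫⁻ z, g z = ENNReal.ofReal (pT.2.1 - pB.2.1) * volume B2
        + ENNReal.ofReal (pR.1 - pL.1) * volume B1 := by
    rw [hg, lintegral_add_left (hm2.const_mul _), lintegral_const_mul _ hm2,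
      lintegral_const_mul _ hm1, Measure.volume_eq_prod, Measure.prod_apply_symm hB1,
      Measure.prod_apply_symm hB2]
  have hlow : ∫⁻ z in Icc a0.2.2 c, ENNReal.ofReal ((z - a0.2.2) / (c - a0.2.2) * k)
      ≤ ∫⁻ z in Icc a0.2.2 c, g z := by
    apply setLIntegral_mono' measurableSet_Icc
    intro z hz
    have hpos : 0 < c - a0.2.2 := sub_pos.2 hc0
    rcases eq_or_lt_of_le hz.1 with h | h
    · rw [← h]; simp
    · have hb := slice_bound K hK B1 B2 hB1 hB2 hcov a0 pL pR pB pT h0 hL hR hB hT c hLc hRc hBc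
        hTc hx hy hyl hyr hxb hxt ((z - a0.2.2) / (c - a0.2.2)) (div_pos (sub_pos.2 h) hpos)
        ((div_le_one hpos).2 (by linarith [hz.2]))
      have e : a0.2.2 + (z - a0.2.2) / (c - a0.2.2) * (c - a0.2.2) = z := by
        field_simp; ring
      rw [e] at hb
      exact hb
  have hup : ∫⁻ z in Icc c a1.2.2, ENNReal.ofReal ((a1.2.2 - z) / (a1.2.2 - c) * k)
      ≤ ∫⁻ z in Icc c a1.2.2, g z := by
    apply setLIntegral_mono' measurableSet_Icc
    intro z hz
    have hpos : 0 < a1.2.2 - c := sub_pos.2 hc1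
    rcases eq_or_lt_of_le hz.2 with h | h
    · rw [h]; simp
    · have hb := slice_bound K hK B1 B2 hB1 hB2 hcov a1 pL pR pB pT h1 hL hR hB hT c hLc hRc hBc
        hTc hx hy hyl hyr hxb hxt ((a1.2.2 - z) / (a1.2.2 - c)) (div_pos (sub_pos.2 h) hpos)
        ((div_le_one hpos).2 (by linarith [hz.1]))
      have e : a1.2.2 + (a1.2.2 - z) / (a1.2.2 - c) * (c - a1.2.2) = z := by
        have : c - a1.2.2 = - (a1.2.2 - c) := by ring
        rw [this]
        field_simp; ring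
      rw [e] at hb
      exact hb
  rw [tent_lower _ _ _ hc0 hk0] at hlow
  rw [tent_upper _ _ _ hc1 hk0] at hup
  have hsplit : (∫⁻ z in Icc a0.2.2 c, g z) + ∫⁻ z in Icc c a1.2.2, g z ≤ ∫⁻ z, g z := by
    have e1 : ∫⁻ z in Icc c a1.2.2, g z = ∫⁻ z in Ioc c a1.2.2, g z :=
      setLIntegral_congr Ioc_ae_eq_Icc.symm
    have hdis : Disjoint (Icc a0.2.2 c) (Ioc c a1.2.2) := by
      rw [Set.disjoint_left]
      intro x hx1 hx2
      exact absurd hx1.2 (not_le.2 hx2.1)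
    rw [e1, ← lintegral_union measurableSet_Ioc hdis]
    exact setLIntegral_le_lintegral _ _
  rw [← hgint]
  refine le_trans ?_ (le_trans (add_le_add hlow hup) hsplit)
  rw [← ENNReal.ofReal_add (mul_nonneg (by linarith) hk0) (mul_nonneg (by linarith) hk0)]
  apply ENNReal.ofReal_le_ofReal
  apply le_of_eq
  ring

end Vale.Agent.P243
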