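import Mathlib

open MeasureTheory Set

namespace Vale.Agent.P243

/-- A compact convex planar set whose heights fill `[z0,z1]` and whose middle horizontal section
lies in `[α,β]` has area at most `(z1 - z0) * (β - α)`. -/
lemma shadow_le (Q : Set (ℝ × ℝ)) (hQc : IsCompact Q) (hQ : Convex ℝ Q) (z0 z1 α β : ℝ)
    (hz : ∀ p ∈ Q, p.2 ∈ Icc z0 z1) (p0 p1 : ℝ × ℝ) (hp0 : p0 ∈ Q) (hp1 : p1 ∈ Q)
    (h0 : p0.2 = z0) (h1 : p1.2 = z1)
    (hmid : ∀ p ∈ Q, p.2 = (z0 + z1) / 2 → p.1 ∈ Icc α β) :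
    volume Q ≤ ENNReal.ofReal ((z1 - z0) * (β - α)) := by
  set f : ℝ → ENNReal := fun z => volume ((fun t : ℝ => (t, z)) ⁻¹' Q) with hf
  have hQm : MeasurableSet Q := hQc.isClosed.measurableSet
  have hvol : volume Q = ∫⁻ z, f z := by
    rw [Measure.volume_eq_prod, Measure.prod_apply_symm hQm]
  have hfm : Measurable f := measurable_measure_prodMk_right hQm
  have hsec : ∀ z ∈ Icc z0 z1, ∃ m M : ℝ, (m, z) ∈ Q ∧ (M, z) ∈ Q ∧
      ∀ t, (t, z) ∈ Q → t ∈ Icc m M := by
    intro z hz'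
    have hne : (Q ∩ {p | p.2 = z}).Nonempty := by
      rcases eq_or_lt_of_le (hz'.1.trans hz'.2) with h | h
      · refine ⟨p0, hp0, ?_⟩
        have : z = z0 := le_antisymm (by rw [h]; exact hz'.2) hz'.1
        simp [h0, this]
      · have hpos : 0 < z1 - z0 := sub_pos.2 h
        have ht : (z - z0) / (z1 - z0) ∈ Icc (0 : ℝ) 1 :=
          ⟨div_nonneg (sub_nonneg.2 hz'.1) hpos.le, (div_le_one hpos).2 (by linarith [hz'.2])⟩
        refine ⟨_, hQ.add_smul_sub_mem hp0 hp1 ht, ?_⟩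
        simp only [Set.mem_ofPred_eq, Prod.snd_add, Prod.smul_snd, Prod.snd_sub, smul_eq_mul, h0, h1]
        field_simp
        ring
    have hcomp : IsCompact (Q ∩ {p | p.2 = z}) :=
      hQc.inter_right (isClosed_eq continuous_snd continuous_const)
    obtain ⟨pm, hpm, hmin⟩ := hcomp.exists_isMinOn hne continuous_fst.continuousOn
    obtain ⟨pM, hpM, hmax⟩ := hcomp.exists_isMaxOn hne continuous_fst.continuousOn
    refine ⟨pm.1, pM.1, ?_, ?_, ?_⟩
    · have : pm = (pm.1, z) := Prod.ext rfl hpm.2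
      rw [← this]; exact hpm.1
    · have : pM = (pM.1, z) := Prod.ext rfl hpM.2
      rw [← this]; exact hpM.1
    · intro t ht
      exact ⟨hmin ⟨ht, rfl⟩, hmax ⟨ht, rfl⟩⟩
  have hpair : ∀ z, f z + f (z0 + z1 - z)
      ≤ (Icc z0 z1).indicator (fun _ => ENNReal.ofReal (2 * (β - α))) z := by
    intro z
    by_cases hzI : z ∈ Icc z0 z1
    · rw [indicator_of_mem hzI]
      have hzI' : z0 + z1 - z ∈ Icc z0 z1 := ⟨by linarith [hzI.2], by linarith [hzI.1]⟩
      obtain ⟨m, M, hm, hM, hmM⟩ := hsec z hzI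
      obtain ⟨m', M', hm', hM', hmM'⟩ := hsec _ hzI'
      have e1 : f z ≤ ENNReal.ofReal (M - m) := by
        rw [← Real.volume_Icc]
        exact measure_mono (fun t ht => hmM t ht)
      have e2 : f (z0 + z1 - z) ≤ ENNReal.ofReal (M' - m') := by
        rw [← Real.volume_Icc]
        exact measure_mono (fun t ht => hmM' t ht)
      have hmm : m ≤ M := (hmM m hm).2
      have hmm' : m' ≤ M' := (hmM' m' hm').2
      have mid1 := hQ.add_smul_sub_mem hm hm' (t := 1 / 2) ⟨by norm_num, by norm_num⟩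
      have mid2 := hQ.add_smul_sub_mem hM hM' (t := 1 / 2) ⟨by norm_num, by norm_num⟩
      have k1 := hmid _ mid1 (by simp; ring)
      have k2 := hmid _ mid2 (by simp; ring)
      simp only [Prod.fst_add, Prod.smul_fst, Prod.fst_sub, smul_eq_mul] at k1 k2
      calc f z + f (z0 + z1 - z) ≤ ENNReal.ofReal (M - m) + ENNReal.ofReal (M' - m') :=
            add_le_add e1 e2
        _ = ENNReal.ofReal ((M - m) + (M' - m')) :=
            (ENNReal.ofReal_add (sub_nonneg.2 hmm) (sub_nonneg.2 hmm')).symm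
        _ ≤ ENNReal.ofReal (2 * (β - α)) := by
            apply ENNReal.ofReal_le_ofReal
            linarith [k1.1, k2.2]
    · rw [indicator_of_notMem hzI]
      have hzI' : z0 + z1 - z ∉ Icc z0 z1 := by
        intro h
        exact hzI ⟨by linarith [h.2], by linarith [h.1]⟩
      have e1 : (fun t : ℝ => (t, z)) ⁻¹' Q = ∅ := by
        ext t
        simp only [mem_preimage, mem_empty_iff_false, iff_false]
        intro ht
        exact hzI (hz _ ht)
      have e2 : (fun t : ℝ => (t, z0 + z1 - z)) ⁻¹' Q = ∅ := by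
        ext t
        simp only [mem_preimage, mem_empty_iff_false, iff_false]
        intro ht
        exact hzI' (hz _ ht)
      simp [hf, e1, e2]
  have hrefl : ∫⁻ z, f (z0 + z1 - z) = ∫⁻ z, f z := lintegral_sub_left_eq_self f (z0 + z1)
  have h2 : 2 * ∫⁻ z, f z ≤ ENNReal.ofReal (2 * (β - α)) * ENNReal.ofReal (z1 - z0) := by
    calc 2 * ∫⁻ z, f z = (∫⁻ z, f z) + ∫⁻ z, f (z0 + z1 - z) := by rw [hrefl, two_mul]
      _ = ∫⁻ z, (f z + f (z0 + z1 - z)) := (lintegral_add_left hfm _).symm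
      _ ≤ ∫⁻ z, (Icc z0 z1).indicator (fun _ => ENNReal.ofReal (2 * (β - α))) z :=
          lintegral_mono hpair
      _ = ENNReal.ofReal (2 * (β - α)) * ENNReal.ofReal (z1 - z0) := by
          rw [lintegral_indicator measurableSet_Icc, setLIntegral_const, Real.volume_Icc]
  have hz01 : z0 ≤ z1 := by
    have := hz p0 hp0
    rw [h0] at this
    exact this.2
  have h3 : ENNReal.ofReal (2 * (β - α)) * ENNReal.ofReal (z1 - z0)
      = 2 * ENNReal.ofReal ((z1 - z0) * (β - α)) := by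
    rw [mul_comm (ENNReal.ofReal (2 * (β - α))), ← ENNReal.ofReal_mul (sub_nonneg.2 hz01)]
    have : (2 : ENNReal) = ENNReal.ofReal 2 := by simp
    rw [this, ← ENNReal.ofReal_mul (by norm_num)]
    congr 1
    ring
  rw [h3] at h2
  rw [hvol]
  exact (ENNReal.mul_le_mul_iff_right (by norm_num) (by norm_num)).1 h2

end Vale.Agent.P243
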