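import Vale.Agent.P243.Chord
import Vale.Agent.P243.Integrate
import Vale.Agent.P243.Shadow

/-! Bang's half-area inequality for cylinders whose axes are parallel to one plane. -/

open Set MeasureTheory

namespace Vale.Agent.P243

theorem coplanar_core {ι : Type*} [Fintype ι]
    (K : Set (ℝ × ℝ × ℝ)) (hKconv : Convex ℝ K) (hKcomp : IsCompact K)
    (n : ι → ℝ × ℝ) (hn : ∀ i, (n i).1 ^ 2 + (n i).2 ^ 2 = 1)
    (B : ι → Set (ℝ × ℝ)) (hB : ∀ i, MeasurableSet (B i))
    (hcov : ∀ p ∈ K, ∃ i, ((n i).1 * p.1 + (n i).2 * p.2.1, p.2.2) ∈ B i)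
    (A : ℝ) (hA : ∀ m : ℝ × ℝ, m.1 ^ 2 + m.2 ^ 2 = 1 →
      ENNReal.ofReal A ≤ volume ((fun p : ℝ × ℝ × ℝ => (m.1 * p.1 + m.2 * p.2.1, p.2.2)) '' K)) :
    ENNReal.ofReal (A / 2) ≤ ∑ i, volume (B i) := by
  rcases le_or_gt A 0 with hA0 | hApos
  · rw [ENNReal.ofReal_of_nonpos (by linarith)]
    exact zero_le
  have hne : K.Nonempty := by
    by_contra hemp
    rw [Set.not_nonempty_iff_eq_empty] at hemp
    have := hA (1, 0) (by norm_num)
    rw [hemp, Set.image_empty, measure_empty, nonpos_iff_eq_zero, ENNReal.ofReal_eq_zero] at this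
    linarith
  have hcz : Continuous (fun p : ℝ × ℝ × ℝ => p.2.2) := by fun_prop
  obtain ⟨a0, ha0, hmin⟩ := hKcomp.exists_isMinOn hne hcz.continuousOn
  obtain ⟨a1, ha1, hmax⟩ := hKcomp.exists_isMaxOn hne hcz.continuousOn
  have hmin' : ∀ p ∈ K, a0.2.2 ≤ p.2.2 := fun p hp => hmin hp
  have hmax' : ∀ p ∈ K, p.2.2 ≤ a1.2.2 := fun p hp => hmax hp
  set c : ℝ := (a0.2.2 + a1.2.2) / 2 with hc
  set l : ℝ := a1.2.2 - a0.2.2 with hl
  have hl0 : 0 ≤ l := sub_nonneg.2 (hmin' a1 ha1)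
  have hPc : IsCompact (slice K c) := slice_compact K hKcomp c
  have hPconv : Convex ℝ (slice K c) := slice_convex K hKconv c
  have hPne : (slice K c).Nonempty := by
    have := hKconv.add_smul_sub_mem ha0 ha1 (t := 1 / 2) ⟨by norm_num, by norm_num⟩
    refine ⟨((a0 + (1 / 2 : ℝ) • (a1 - a0)).1, (a0 + (1 / 2 : ℝ) • (a1 - a0)).2.1), ?_⟩
    unfold slice
    rw [Set.mem_ofPred_eq]
    convert this using 1
    ext
    · rfl
    · rfl
    · simp only [Prod.snd_add, Prod.smul_snd, Prod.snd_sub, smul_eq_mul, hc]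
      ring
  -- widths of the middle slice
  have hwid0 : ∀ m : ℝ × ℝ, m.1 ^ 2 + m.2 ^ 2 = 1 →
      ∃ p ∈ slice K c, ∃ q ∈ slice K c, A ≤ l * (dot m q - dot m p) := by
    intro m hm
    obtain ⟨p, hp, hpmin⟩ := hPc.exists_isMinOn hPne (dot_continuous m).continuousOn
    obtain ⟨q, hq, hqmax⟩ := hPc.exists_isMaxOn hPne (dot_continuous m).continuousOn
    refine ⟨p, hp, q, hq, ?_⟩
    have hcm : Continuous (fun p : ℝ × ℝ × ℝ => (m.1 * p.1 + m.2 * p.2.1, p.2.2)) := by fun_prop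
    have hlin : IsLinearMap ℝ (fun p : ℝ × ℝ × ℝ => (m.1 * p.1 + m.2 * p.2.1, p.2.2)) := by
      constructor
      · intro x y
        ext
        · simp only [Prod.fst_add, Prod.snd_add]; ring
        · simp only [Prod.snd_add]
      · intro t x
        ext
        · simp only [Prod.smul_fst, Prod.smul_snd, smul_eq_mul]; ring
        · simp only [Prod.smul_snd]
    have H := shadow_le ((fun p : ℝ × ℝ × ℝ => (m.1 * p.1 + m.2 * p.2.1, p.2.2)) '' K)
      (hKcomp.image hcm) (hKconv.is_linear_image hlin) a0.2.2 a1.2.2 (dot m p) (dot m q)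
      (by
        rintro _ ⟨x, hx, rfl⟩
        exact ⟨hmin' x hx, hmax' x hx⟩)
      _ _ ⟨a0, ha0, rfl⟩ ⟨a1, ha1, rfl⟩ rfl rfl
      (by
        rintro _ ⟨x, hx, rfl⟩ hxc
        have hxs : (x.1, x.2.1) ∈ slice K c := by
          unfold slice
          rw [Set.mem_ofPred_eq]
          have : x = (x.1, x.2.1, c) := by
            ext
            · rfl
            · rfl
            · exact hxc
          simp only
          rw [← this]
          exact hx
        exact ⟨hpmin hxs, hqmax hxs⟩)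
    have H2 := (hA m hm).trans H
    rcases (ENNReal.ofReal_le_ofReal_iff').1 H2 with h | h
    · exact h
    · linarith
  have hlpos : 0 < l := by
    obtain ⟨p, _, q, _, h⟩ := hwid0 (1, 0) (by norm_num)
    rcases hl0.eq_or_lt with h0 | h0
    · rw [← h0, zero_mul] at h
      linarith
    · exact h0
  set w : ℝ := A / l with hw
  have hw0 : 0 ≤ w := (div_pos hApos hlpos).le
  have hch := chord_of_width (slice K c) hPconv hPc w hw0 (by
    intro m hm
    obtain ⟨p, hp, q, hq, h⟩ := hwid0 m hm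
    refine ⟨p, hp, q, hq, ?_⟩
    rw [hw, div_le_iff₀ hlpos]
    linarith)
  have hc0 : a0.2.2 < c := by rw [hc]; linarith
  have hc1 : c < a1.2.2 := by rw [hc]; linarith
  -- slice bound
  have hslice : ∀ (a : ℝ × ℝ × ℝ), a ∈ K → ∀ θ : ℝ, 0 ≤ θ → θ ≤ 1 →
      ENNReal.ofReal (θ * w)
        ≤ ∑ i, volume ((fun s : ℝ => (s, a.2.2 + θ * (c - a.2.2))) ⁻¹' B i) := by
    intro a ha θ h0 h1
    apply plank_meas (slice K (a.2.2 + θ * (c - a.2.2))) (slice_convex K hKconv _)
      (slice_compact K hKcomp _) (θ * w) (slice_chord K hKconv a ha c w θ h0 h1 hch) n hn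
    intro p hp
    obtain ⟨i, hi⟩ := hcov _ hp
    exact ⟨i, hi⟩
  set g : ℝ → ENNReal := fun z => ∑ i, volume ((fun s : ℝ => (s, z)) ⁻¹' B i) with hg
  have hm : ∀ i, Measurable (fun z : ℝ => volume ((fun s : ℝ => (s, z)) ⁻¹' B i)) :=
    fun i => measurable_measure_prodMk_right (hB i)
  have hgint : ∫⁻ z, g z = ∑ i, volume (B i) := by
    rw [hg, lintegral_finsetSum _ (fun i _ => hm i)]
    refine Finset.sum_congr rfl (fun i _ => ?_)
    rw [Measure.volume_eq_prod, Measure.prod_apply_symm (hB i)]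
  have hlow : ∫⁻ z in Icc a0.2.2 c, ENNReal.ofReal ((z - a0.2.2) / (c - a0.2.2) * w)
      ≤ ∫⁻ z in Icc a0.2.2 c, g z := by
    apply setLIntegral_mono' measurableSet_Icc
    intro z hz
    have hpos : 0 < c - a0.2.2 := sub_pos.2 hc0
    have hb := hslice a0 ha0 ((z - a0.2.2) / (c - a0.2.2)) (div_nonneg (sub_nonneg.2 hz.1) hpos.le)
      ((div_le_one hpos).2 (by linarith [hz.2]))
    have e : a0.2.2 + (z - a0.2.2) / (c - a0.2.2) * (c - a0.2.2) = z := by
      field_simp; ring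
    rw [e] at hb
    exact hb
  have hup : ∫⁻ z in Icc c a1.2.2, ENNReal.ofReal ((a1.2.2 - z) / (a1.2.2 - c) * w)
      ≤ ∫⁻ z in Icc c a1.2.2, g z := by
    apply setLIntegral_mono' measurableSet_Icc
    intro z hz
    have hpos : 0 < a1.2.2 - c := sub_pos.2 hc1
    have hb := hslice a1 ha1 ((a1.2.2 - z) / (a1.2.2 - c)) (div_nonneg (sub_nonneg.2 hz.2) hpos.le)
      ((div_le_one hpos).2 (by linarith [hz.1]))
    have e : a1.2.2 + (a1.2.2 - z) / (a1.2.2 - c) * (c - a1.2.2) = z := by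
      have : c - a1.2.2 = - (a1.2.2 - c) := by ring
      rw [this]
      field_simp; ring
    rw [e] at hb
    exact hb
  rw [tent_lower _ _ _ hc0 hw0] at hlow
  rw [tent_upper _ _ _ hc1 hw0] at hup
  have hsplit : (∫⁻ z in Icc a0.2.2 c, g z) + ∫⁻ z in Icc c a1.2.2, g z ≤ ∫⁻ z, g z := by
    have e1 : ∫⁻ z in Icc c a1.2.2, g z = ∫⁻ z in Ioc c a1.2.2, g z :=
      setLIntegral_congr Ioc_ae_eq_Icc.symm
    have hdis : Disjoint (Icc a0.2.2 c) (Ioc c a1.2.2) := by
      rw [Set.disjoint_left]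
      intro x hx1 hx2
      exact absurd hx1.2 (not_le.2 hx2.1)
    rw [e1, ← lintegral_union measurableSet_Ioc hdis]
    exact setLIntegral_le_lintegral _ _
  rw [← hgint]
  refine le_trans ?_ (le_trans (add_le_add hlow hup) hsplit)
  rw [← ENNReal.ofReal_add (mul_nonneg (by linarith) hw0) (mul_nonneg (by linarith) hw0)]
  apply ENNReal.ofReal_le_ofReal
  apply le_of_eq
  have : (c - a0.2.2) / 2 * w + (a1.2.2 - c) / 2 * w = l * w / 2 := by rw [hl]; ring
  rw [this, hw, mul_div_cancel₀ _ hlpos.ne']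

end Vale.Agent.P243
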