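import Mathlib

namespace Vale.Agent.P243

/-- the orientation quantity of the four contact points -/
def Phi (a b c e : ℝ) : ℝ := c * b * (1 - a) - a * e * (1 - b) - c * e * (b - a)

lemma Phi_reflect (a b c e : ℝ) : Phi b a (1 - c) (1 - e) = - Phi a b c e := by
  unfold Phi; ring

lemma Phi_swap (a b c e : ℝ) : Phi c e a b = - Phi a b c e := by
  unfold Phi; ring

/-- one of the two diagonals can always be used -/
lemma Phi_dichotomy (a b c e : ℝ) (ha0 : 0 ≤ a) (ha1 : a ≤ 1) (hb0 : 0 ≤ b) (hb1 : b ≤ 1)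
    (hc0 : 0 ≤ c) (hc1 : c ≤ 1) :
    0 ≤ (b - a) * Phi a b c e ∨ 0 ≤ (c - e) * Phi a b c e := by
  have hbr : 0 ≤ a * (1 - b) + c * (b - a) := by
    have h1 : a * (1 - b) + c * (b - a) = (1 - c) * (a * (1 - b)) + c * (b * (1 - a)) := by ring
    rw [h1]
    have := mul_nonneg (sub_nonneg.2 hc1) (mul_nonneg ha0 (sub_nonneg.2 hb1))
    have := mul_nonneg hc0 (mul_nonneg hb0 (sub_nonneg.2 ha1))
    linarith
  have hid : Phi a b c e = c * (b - a) * (1 - c) + (c - e) * (a * (1 - b) + c * (b - a)) := by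
    unfold Phi; ring
  have hcc : 0 ≤ c * (1 - c) := mul_nonneg hc0 (sub_nonneg.2 hc1)
  rcases le_total 0 (Phi a b c e) with hP | hP
  · rcases le_total a b with hab | hab
    · left; exact mul_nonneg (sub_nonneg.2 hab) hP
    · rcases le_total e c with hec | hec
      · right; exact mul_nonneg (sub_nonneg.2 hec) hP
      · -- then Phi ≤ 0
        have h1 : Phi a b c e ≤ 0 := by
          rw [hid]
          have := mul_nonneg hcc (sub_nonneg.2 hab)
          have := mul_nonneg (sub_nonneg.2 hec) hbr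
          nlinarith
        have h0 : Phi a b c e = 0 := le_antisymm h1 hP
        left; rw [h0]; simp
  · rcases le_total b a with hab | hab
    · left; exact mul_nonneg_of_nonpos_of_nonpos (sub_nonpos.2 hab) hP
    · rcases le_total c e with hec | hec
      · right; exact mul_nonneg_of_nonpos_of_nonpos (sub_nonpos.2 hec) hP
      · have h1 : 0 ≤ Phi a b c e := by
          rw [hid]
          have := mul_nonneg hcc (sub_nonneg.2 hab)
          have := mul_nonneg (sub_nonneg.2 hec) hbr
          nlinarith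
        have h0 : Phi a b c e = 0 := le_antisymm hP h1
        left; rw [h0]; simp

/-- The arithmetic heart of the planar lemma: a positive combination of five segment
inequalities. -/
lemma core (a b c e u1 u2 u3 u4 vl vm vh : ℝ)
    (ha0 : 0 ≤ a) (hab : a ≤ b) (hb1 : b ≤ 1) (hc0 : 0 ≤ c) (hc1 : c ≤ 1)
    (he0 : 0 ≤ e) (he1 : e ≤ 1)
    (hPhi : 0 ≤ (b - a) * Phi a b c e)
    (hu : u1 + u2 = u3 + u4)
    (hvl : 0 ≤ vl) (hvm : 0 ≤ vm) (hvh : 0 ≤ vh) (hvm' : vm ≤ b - a)
    (S1 : e * (1 - a) ≤ (1 - a) * u1 + e * (vm + vh))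
    (S2 : (1 - e) * (1 - b) ≤ (1 - b) * u2 + (1 - e) * vh)
    (S3 : c * a ≤ a * u3 + c * vl)
    (S4 : (1 - c) * b ≤ b * u4 + (1 - c) * (vl + vm))
    (S5 : b - a ≤ (b - a) * (u1 + u2) + vm) :
    1 ≤ u1 + u2 + (vl + vm + vh) := by
  have hu4 : u4 = u1 + u2 - u3 := by linarith
  subst hu4
  have hb0 : 0 ≤ b := ha0.trans hab
  have ha1 : a ≤ 1 := hab.trans hb1
  have hD1 : 0 ≤ (1 - c) * a + c * b := by
    have := mul_nonneg (sub_nonneg.2 hc1) ha0
    have := mul_nonneg hc0 hb0
    linarith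
  have hD2 : 0 ≤ (1 - e) * (1 - a) + e * (1 - b) := by
    have := mul_nonneg (sub_nonneg.2 he1) (sub_nonneg.2 ha1)
    have := mul_nonneg he0 (sub_nonneg.2 hb1)
    linarith
  have h5 : 0 ≤ Phi a b c e * ((b - a) * (u1 + u2) + vm - (b - a)) := by
    rcases eq_or_lt_of_le hab with h | h
    · subst h
      have : vm = 0 := by linarith
      subst this
      simp
    · have hP : 0 ≤ Phi a b c e := by
        by_contra hneg
        have := mul_neg_of_pos_of_neg (sub_pos.2 h) (not_le.1 hneg)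
        linarith
      exact mul_nonneg hP (by linarith)
  by_cases hD1z : (1 - c) * a + c * b = 0
  · -- degenerate: the left and bottom contact points coincide with a corner
    have h1 : (1 - c) * a = 0 := by
      have := mul_nonneg (sub_nonneg.2 hc1) ha0
      have := mul_nonneg hc0 hb0
      linarith
    have h2 : c * b = 0 := by linarith
    have ha : a = 0 := by
      rcases mul_eq_zero.1 h1 with h | h
      · have hc : c = 1 := by linarith
        rw [hc] at h2
        linarith
      · exact h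
    subst ha
    rcases mul_eq_zero.1 h2 with h | h
    · subst h
      by_cases heb : e * b = 1
      · have hb : b = 1 := by nlinarith
        subst hb
        linarith
      · have hlt : 0 < 1 - e * b := by
          have : e * b ≤ 1 := by nlinarith
          rcases lt_or_eq_of_le this with h | h
          · linarith
          · exact absurd h heb
        have m1 := mul_nonneg (sub_nonneg.2 hb1) (sub_nonneg.2 S1)
        have m5 := mul_nonneg (sub_nonneg.2 he1) (sub_nonneg.2 S5)
        have key : (1 - e * b) * 1 ≤ (1 - e * b) * (u1 + u2 + (vm + vh)) := by nlinarith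
        have := le_of_mul_le_mul_left key hlt
        linarith
    · subst h
      have : e * vm ≤ vm := by nlinarith
      linarith
  by_cases hD2z : (1 - e) * (1 - a) + e * (1 - b) = 0
  · have h1 : (1 - e) * (1 - a) = 0 := by
      have := mul_nonneg (sub_nonneg.2 he1) (sub_nonneg.2 ha1)
      have := mul_nonneg he0 (sub_nonneg.2 hb1)
      linarith
    have h2 : e * (1 - b) = 0 := by linarith
    have hb : b = 1 := by
      rcases mul_eq_zero.1 h2 with h | h
      · rw [h] at h1
        linarith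
      · linarith
    subst hb
    rcases mul_eq_zero.1 h1 with h | h
    · have he : e = 1 := by linarith
      subst he
      have hlt : 0 < (1 - c) * a + c * 1 := lt_of_le_of_ne hD1 (Ne.symm hD1z)
      have m4 := mul_nonneg ha0 (sub_nonneg.2 S4)
      have m5 := mul_nonneg hc0 (sub_nonneg.2 S5)
      have key : ((1 - c) * a + c * 1) * 1 ≤ ((1 - c) * a + c * 1) * (u1 + u2 + (vl + vm)) := by
        nlinarith
      have := le_of_mul_le_mul_left key hlt
      linarith
    · have ha : a = 1 := by linarith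
      subst ha
      have : (1 - c) * vm ≤ vm := by nlinarith
      linarith
  have hD1p : 0 < (1 - c) * a + c * b := lt_of_le_of_ne hD1 (Ne.symm hD1z)
  have hD2p : 0 < (1 - e) * (1 - a) + e * (1 - b) := lt_of_le_of_ne hD2 (Ne.symm hD2z)
  have m1 := mul_nonneg (mul_nonneg (sub_nonneg.2 hb1) hD1) (sub_nonneg.2 S1)
  have m2 := mul_nonneg (mul_nonneg (sub_nonneg.2 ha1) hD1) (sub_nonneg.2 S2)
  have m3 := mul_nonneg (mul_nonneg hb0 hD2) (sub_nonneg.2 S3)
  have m4 := mul_nonneg (mul_nonneg ha0 hD2) (sub_nonneg.2 S4)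
  have key : (((1 - c) * a + c * b) * ((1 - e) * (1 - a) + e * (1 - b))) * 1
      ≤ (((1 - c) * a + c * b) * ((1 - e) * (1 - a) + e * (1 - b)))
        * (u1 + u2 + (vl + vm + vh)) := by
    have hid : (((1 - c) * a + c * b) * ((1 - e) * (1 - a) + e * (1 - b)))
        * (u1 + u2 + (vl + vm + vh))
        - (((1 - c) * a + c * b) * ((1 - e) * (1 - a) + e * (1 - b))) * 1
        = (1 - b) * ((1 - c) * a + c * b) * ((1 - a) * u1 + e * (vm + vh) - e * (1 - a))
        + (1 - a) * ((1 - c) * a + c * b) * ((1 - b) * u2 + (1 - e) * vh - (1 - e) * (1 - b))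
        + b * ((1 - e) * (1 - a) + e * (1 - b)) * (a * u3 + c * vl - c * a)
        + a * ((1 - e) * (1 - a) + e * (1 - b))
          * (b * (u1 + u2 - u3) + (1 - c) * (vl + vm) - (1 - c) * b)
        + Phi a b c e * ((b - a) * (u1 + u2) + vm - (b - a)) := by
      unfold Phi; ring
    linarith
  exact le_of_mul_le_mul_left key (mul_pos hD1p hD2p)

/-- `core` in unnormalised coordinates (a box of side lengths `w2` and `w1`). -/
lemma core_scaled (w1 w2 : ℝ) (hw1 : 0 < w1) (hw2 : 0 < w2) (A B C E U1 U2 U3 U4 Vl Vm Vh : ℝ)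
    (hA0 : 0 ≤ A) (hAB : A ≤ B) (hB1 : B ≤ w1) (hC0 : 0 ≤ C) (hC1 : C ≤ w2)
    (hE0 : 0 ≤ E) (hE1 : E ≤ w2)
    (hPhi : 0 ≤ (B / w1 - A / w1) * Phi (A / w1) (B / w1) (C / w2) (E / w2))
    (hu : U1 + U2 = U3 + U4)
    (hVl : 0 ≤ Vl) (hVm : 0 ≤ Vm) (hVh : 0 ≤ Vh) (hVm' : Vm ≤ B - A)
    (S1 : E * (w1 - A) ≤ (w1 - A) * U1 + E * (Vm + Vh))
    (S2 : (w2 - E) * (w1 - B) ≤ (w1 - B) * U2 + (w2 - E) * Vh)
    (S3 : C * A ≤ A * U3 + C * Vl)
    (S4 : (w2 - C) * B ≤ B * U4 + (w2 - C) * (Vl + Vm))
    (S5 : w2 * (B - A) ≤ (B - A) * (U1 + U2) + w2 * Vm) :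
    w1 * w2 ≤ w1 * (U1 + U2) + w2 * (Vl + Vm + Vh) := by
  have hww : 0 < w1 * w2 := mul_pos hw1 hw2
  have h := core (A / w1) (B / w1) (C / w2) (E / w2) (U1 / w2) (U2 / w2) (U3 / w2) (U4 / w2)
    (Vl / w1) (Vm / w1) (Vh / w1) (div_nonneg hA0 hw1.le)
    (div_le_div_of_nonneg_right hAB hw1.le) ((div_le_one hw1).2 hB1) (div_nonneg hC0 hw2.le)
    ((div_le_one hw2).2 hC1) (div_nonneg hE0 hw2.le) ((div_le_one hw2).2 hE1) hPhi
    (by rw [← add_div, ← add_div, hu]) (div_nonneg hVl hw1.le) (div_nonneg hVm hw1.le)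
    (div_nonneg hVh hw1.le)
    (by rw [← sub_div]; exact div_le_div_of_nonneg_right hVm' hw1.le)
    (by
      rw [← sub_nonneg]
      have : (1 - A / w1) * (U1 / w2) + E / w2 * (Vm / w1 + Vh / w1) - E / w2 * (1 - A / w1)
          = ((w1 - A) * U1 + E * (Vm + Vh) - E * (w1 - A)) / (w1 * w2) := by
        field_simp
      rw [this]; exact div_nonneg (by linarith) hww.le)
    (by
      rw [← sub_nonneg]
      have : (1 - B / w1) * (U2 / w2) + (1 - E / w2) * (Vh / w1) - (1 - E / w2) * (1 - B / w1)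
          = ((w1 - B) * U2 + (w2 - E) * Vh - (w2 - E) * (w1 - B)) / (w1 * w2) := by
        field_simp
      rw [this]; exact div_nonneg (by linarith) hww.le)
    (by
      rw [← sub_nonneg]
      have : A / w1 * (U3 / w2) + C / w2 * (Vl / w1) - C / w2 * (A / w1)
          = (A * U3 + C * Vl - C * A) / (w1 * w2) := by
        field_simp
      rw [this]; exact div_nonneg (by linarith) hww.le)
    (by
      rw [← sub_nonneg]
      have : B / w1 * (U4 / w2) + (1 - C / w2) * (Vl / w1 + Vm / w1) - (1 - C / w2) * (B / w1)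
          = (B * U4 + (w2 - C) * (Vl + Vm) - (w2 - C) * B) / (w1 * w2) := by
        field_simp
      rw [this]; exact div_nonneg (by linarith) hww.le)
    (by
      rw [← sub_nonneg]
      have : (B / w1 - A / w1) * (U1 / w2 + U2 / w2) + Vm / w1 - (B / w1 - A / w1)
          = ((B - A) * (U1 + U2) + w2 * Vm - w2 * (B - A)) / (w1 * w2) := by
        field_simp
      rw [this]; exact div_nonneg (by linarith) hww.le)
  have h2 := mul_le_mul_of_nonneg_left h hww.le
  have h3 : w1 * w2 * (U1 / w2 + U2 / w2 + (Vl / w1 + Vm / w1 + Vh / w1))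
      = w1 * (U1 + U2) + w2 * (Vl + Vm + Vh) := by
    field_simp
  linarith

end Vale.Agent.P243
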