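import Vale.Agent.P243.Integrate
import Vale.Agent.P243.Shadow

open MeasureTheory Set

namespace Vale.Agent.P243

lemma finish (X Y P Q : ENNReal) (l w1 w2 : ℝ) (hl : 0 < l) (hw1 : 0 < w1) (hw2 : 0 < w2)
    (hP : P ≤ ENNReal.ofReal (l * w1)) (hQ : Q ≤ ENNReal.ofReal (l * w2))
    (h : ENNReal.ofReal (l / 2 * (w2 * w1)) ≤ ENNReal.ofReal w1 * Y + ENNReal.ofReal w2 * X) :
    1 / 2 ≤ X / P + Y / Q := by
  have h1 : X / ENNReal.ofReal (l * w1) ≤ X / P := ENNReal.div_le_div_left hP X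
  have h2 : Y / ENNReal.ofReal (l * w2) ≤ Y / Q := ENNReal.div_le_div_left hQ Y
  refine le_trans ?_ (add_le_add h1 h2)
  rw [ENNReal.div_eq_inv_mul (a := X), ENNReal.div_eq_inv_mul (a := Y),
    ← ENNReal.ofReal_inv_of_pos (mul_pos hl hw1), ← ENNReal.ofReal_inv_of_pos (mul_pos hl hw2)]
  have h3 := mul_le_mul_right h (ENNReal.ofReal ((l * w1 * w2)⁻¹))
  have hpos : 0 ≤ (l * w1 * w2)⁻¹ := by positivity
  have e1 : (l * w1 * w2)⁻¹ * (l / 2 * (w2 * w1)) = 1 / 2 := by field_simp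
  have e2 : (l * w1 * w2)⁻¹ * w1 = (l * w2)⁻¹ := by field_simp
  have e3 : (l * w1 * w2)⁻¹ * w2 = (l * w1)⁻¹ := by field_simp
  have e4 : ENNReal.ofReal (1 / 2) = 1 / 2 := by
    rw [ENNReal.ofReal_div_of_pos (by norm_num)]
    simp
  have f1 : ENNReal.ofReal ((l * w1 * w2)⁻¹) * ENNReal.ofReal (l / 2 * (w2 * w1)) = 1 / 2 := by
    rw [← ENNReal.ofReal_mul hpos, e1, e4]
  have f2 : ENNReal.ofReal ((l * w1 * w2)⁻¹) * (ENNReal.ofReal w1 * Y)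
      = ENNReal.ofReal ((l * w2)⁻¹) * Y := by
    rw [← mul_assoc, ← ENNReal.ofReal_mul hpos, e2]
  have f3 : ENNReal.ofReal ((l * w1 * w2)⁻¹) * (ENNReal.ofReal w2 * X)
      = ENNReal.ofReal ((l * w1)⁻¹) * X := by
    rw [← mul_assoc, ← ENNReal.ofReal_mul hpos, e3]
  rw [mul_add, f1, f2, f3] at h3
  rw [add_comm]
  exact h3

/-- The half bound for two measurable cylinders with perpendicular axes `e₁` and `e₂`. -/
theorem two_perp (K : Set (ℝ × ℝ × ℝ)) (hKconv : Convex ℝ K) (hKcomp : IsCompact K)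
    (hKint : (interior K).Nonempty) (B1 B2 : Set (ℝ × ℝ)) (hB1 : MeasurableSet B1)
    (hB2 : MeasurableSet B2) (hcov : ∀ p ∈ K, p.2 ∈ B1 ∨ (p.1, p.2.2) ∈ B2) :
    1 / 2 ≤ volume B1 / volume (Prod.snd '' K)
      + volume B2 / volume ((fun p : ℝ × ℝ × ℝ => (p.1, p.2.2)) '' K) := by
  have hne : K.Nonempty := hKint.mono interior_subset
  have hcz : Continuous (fun p : ℝ × ℝ × ℝ => p.2.2) := by fun_prop
  have hcy : Continuous (fun p : ℝ × ℝ × ℝ => p.2.1) := by fun_prop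
  have hcx : Continuous (fun p : ℝ × ℝ × ℝ => p.1) := by fun_prop
  have hc2 : Continuous (fun p : ℝ × ℝ × ℝ => (p.1, p.2.2)) := by fun_prop
  obtain ⟨a0, ha0, hmin⟩ := hKcomp.exists_isMinOn hne hcz.continuousOn
  obtain ⟨a1, ha1, hmax⟩ := hKcomp.exists_isMaxOn hne hcz.continuousOn
  have hmin' : ∀ p ∈ K, a0.2.2 ≤ p.2.2 := fun p hp => hmin hp
  have hmax' : ∀ p ∈ K, p.2.2 ≤ a1.2.2 := fun p hp => hmax hp
  set c : ℝ := (a0.2.2 + a1.2.2) / 2 with hc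
  have hMc : IsCompact (K ∩ {p | p.2.2 = c}) :=
    hKcomp.inter_right (isClosed_eq hcz continuous_const)
  have hMne : (K ∩ {p | p.2.2 = c}).Nonempty := by
    refine ⟨_, hKconv.add_smul_sub_mem ha0 ha1 (t := 1 / 2) ⟨by norm_num, by norm_num⟩, ?_⟩
    simp only [Set.mem_ofPred_eq, Prod.snd_add, Prod.smul_snd, Prod.snd_sub, smul_eq_mul, hc]
    ring
  obtain ⟨pL, hpL, hLmin⟩ := hMc.exists_isMinOn hMne hcx.continuousOn
  obtain ⟨pR, hpR, hRmax⟩ := hMc.exists_isMaxOn hMne hcx.continuousOn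
  obtain ⟨pB, hpB, hBmin⟩ := hMc.exists_isMinOn hMne hcy.continuousOn
  obtain ⟨pT, hpT, hTmax⟩ := hMc.exists_isMaxOn hMne hcy.continuousOn
  have hxI : ∀ p ∈ K, p.2.2 = c → p.1 ∈ Icc pL.1 pR.1 :=
    fun p hp hpc => ⟨hLmin ⟨hp, hpc⟩, hRmax ⟨hp, hpc⟩⟩
  have hyI : ∀ p ∈ K, p.2.2 = c → p.2.1 ∈ Icc pB.2.1 pT.2.1 :=
    fun p hp hpc => ⟨hBmin ⟨hp, hpc⟩, hTmax ⟨hp, hpc⟩⟩
  -- the two shadows
  have H1 : volume (Prod.snd '' K)
      ≤ ENNReal.ofReal ((a1.2.2 - a0.2.2) * (pT.2.1 - pB.2.1)) := by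
    apply shadow_le (Prod.snd '' K) (hKcomp.image continuous_snd)
      (hKconv.is_linear_image ⟨fun _ _ => rfl, fun _ _ => rfl⟩) a0.2.2 a1.2.2 pB.2.1 pT.2.1 ?_
      a0.2 a1.2 (mem_image_of_mem _ ha0) (mem_image_of_mem _ ha1) rfl rfl ?_
    · rintro _ ⟨p, hp, rfl⟩
      exact ⟨hmin' p hp, hmax' p hp⟩
    · rintro _ ⟨p, hp, rfl⟩ hpc
      exact hyI p hp hpc
  have H2 : volume ((fun p : ℝ × ℝ × ℝ => (p.1, p.2.2)) '' K)
      ≤ ENNReal.ofReal ((a1.2.2 - a0.2.2) * (pR.1 - pL.1)) := by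
    apply shadow_le ((fun p : ℝ × ℝ × ℝ => (p.1, p.2.2)) '' K) (hKcomp.image hc2)
      (hKconv.is_linear_image ⟨fun _ _ => rfl, fun _ _ => rfl⟩) a0.2.2 a1.2.2 pL.1 pR.1 ?_
      (a0.1, a0.2.2) (a1.1, a1.2.2) ⟨a0, ha0, rfl⟩ ⟨a1, ha1, rfl⟩ rfl rfl ?_
    · rintro _ ⟨p, hp, rfl⟩
      exact ⟨hmin' p hp, hmax' p hp⟩
    · rintro _ ⟨p, hp, rfl⟩ hpc
      exact hxI p hp hpc
  -- positivity
  have P1 : 0 < volume (Prod.snd '' K) := by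
    have hopen : IsOpen (Prod.snd '' (interior K) : Set (ℝ × ℝ)) :=
      isOpenMap_snd _ isOpen_interior
    exact lt_of_lt_of_le (hopen.measure_pos volume (hKint.image _))
      (measure_mono (image_mono interior_subset))
  have P2 : 0 < volume ((fun p : ℝ × ℝ × ℝ => (p.1, p.2.2)) '' K) := by
    have hom : IsOpenMap (fun p : ℝ × ℝ × ℝ => (p.1, p.2.2)) :=
      IsOpenMap.prodMap IsOpenMap.id isOpenMap_snd
    have hopen : IsOpen ((fun p : ℝ × ℝ × ℝ => (p.1, p.2.2)) '' (interior K)) :=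
      hom _ isOpen_interior
    exact lt_of_lt_of_le (hopen.measure_pos volume (hKint.image _))
      (measure_mono (image_mono interior_subset))
  have Q1 : 0 < (a1.2.2 - a0.2.2) * (pT.2.1 - pB.2.1) :=
    ENNReal.ofReal_pos.1 (lt_of_lt_of_le P1 H1)
  have Q2 : 0 < (a1.2.2 - a0.2.2) * (pR.1 - pL.1) :=
    ENNReal.ofReal_pos.1 (lt_of_lt_of_le P2 H2)
  have hl0 : 0 ≤ a1.2.2 - a0.2.2 := sub_nonneg.2 (hmin' a1 ha1)
  have hl : 0 < a1.2.2 - a0.2.2 := by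
    rcases eq_or_lt_of_le hl0 with h | h
    · rw [← h] at Q1; simp at Q1
    · exact h
  have hw1 : 0 < pT.2.1 - pB.2.1 := (mul_pos_iff_of_pos_left hl).1 Q1
  have hw2 : 0 < pR.1 - pL.1 := (mul_pos_iff_of_pos_left hl).1 Q2
  have hvb := volume_bound K hKconv B1 B2 hB1 hB2 hcov a0 a1 pL pR pB pT ha0 ha1 hpL.1 hpR.1
    hpB.1 hpT.1 c hpL.2 hpR.2 hpB.2 hpT.2 (sub_pos.1 hw2) (sub_pos.1 hw1)
    (hyI pL hpL.1 hpL.2) (hyI pR hpR.1 hpR.2) (hxI pB hpB.1 hpB.2) (hxI pT hpT.1 hpT.2)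
    (by rw [hc]; linarith) (by rw [hc]; linarith)
  exact finish _ _ _ _ _ _ _ hl hw1 hw2 H1 H2 hvb

end Vale.Agent.P243
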