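import Vale.Agent.P243.Seg
import Vale.Agent.P243.Core

open MeasureTheory Set

namespace Vale.Agent.P243

lemma len_comm (U : Set ℝ) (p q : ℝ) : len U p q = len U q p := by
  unfold len; rw [uIcc_comm]

lemma seg_up (U V : Set ℝ) (S : Set (ℝ × ℝ)) (hS : Convex ℝ S)
    (hcov : ∀ p ∈ S, p.1 ∈ U ∨ p.2 ∈ V) (x0 x1 y0 y1 : ℝ) (hx : x0 ≤ x1) (hy : y0 ≤ y1)
    (h0 : (x0, y0) ∈ S) (h1 : (x1, y1) ∈ S) :
    (x1 - x0) * (y1 - y0) ≤ (y1 - y0) * len U x0 x1 + (x1 - x0) * len V y0 y1 := by
  have h := seg_ineq U V x0 x1 y0 y1 (by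
    intro t ht
    have hm := hS.add_smul_sub_mem h0 h1 ht
    have := hcov _ hm
    simpa [mul_comm] using this)
  rwa [abs_of_nonneg (sub_nonneg.2 hx), abs_of_nonneg (sub_nonneg.2 hy)] at h

lemma seg_down (U V : Set ℝ) (S : Set (ℝ × ℝ)) (hS : Convex ℝ S)
    (hcov : ∀ p ∈ S, p.1 ∈ U ∨ p.2 ∈ V) (x0 x1 y0 y1 : ℝ) (hx : x0 ≤ x1) (hy : y0 ≤ y1)
    (h0 : (x0, y1) ∈ S) (h1 : (x1, y0) ∈ S) :
    (x1 - x0) * (y1 - y0) ≤ (y1 - y0) * len U x0 x1 + (x1 - x0) * len V y0 y1 := by
  have h := seg_ineq U V x0 x1 y1 y0 (by
    intro t ht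
    have hm := hS.add_smul_sub_mem h0 h1 ht
    have := hcov _ hm
    simpa [mul_comm] using this)
  rw [abs_of_nonneg (sub_nonneg.2 hx), abs_of_nonpos (sub_nonpos.2 hy), len_comm V y1 y0] at h
  linarith

/-- **The planar lemma.**  A convex set `S` touches the four sides of the box
`[xL,xR] × [yB,yT]`.  If every point of `S` has first coordinate in `U` or second coordinate in
`V`, then the relative lengths of `U` and `V` add up to at least one. -/
lemma planar (U V : Set ℝ) (hU : MeasurableSet U) (hV : MeasurableSet V)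
    (xL xR yB yT yl yr xb xt : ℝ) (hx : xL < xR) (hy : yB < yT)
    (hyl : yl ∈ Icc yB yT) (hyr : yr ∈ Icc yB yT) (hxb : xb ∈ Icc xL xR) (hxt : xt ∈ Icc xL xR)
    (S : Set (ℝ × ℝ)) (hS : Convex ℝ S)
    (hL : (xL, yl) ∈ S) (hR : (xR, yr) ∈ S) (hB : (xb, yB) ∈ S) (hT : (xt, yT) ∈ S)
    (hcov : ∀ p ∈ S, p.1 ∈ U ∨ p.2 ∈ V) :
    (xR - xL) * (yT - yB) ≤ (yT - yB) * len U xL xR + (xR - xL) * len V yB yT := by
  obtain ⟨hyl0, hyl1⟩ := hyl
  obtain ⟨hyr0, hyr1⟩ := hyr
  obtain ⟨hxb0, hxb1⟩ := hxb
  obtain ⟨hxt0, hxt1⟩ := hxt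
  have hw1 : 0 < yT - yB := sub_pos.2 hy
  have hw2 : 0 < xR - xL := sub_pos.2 hx
  have LT := seg_up U V S hS hcov xL xt yl yT hxt0 hyl1 hL hT
  have TR := seg_down U V S hS hcov xt xR yr yT hxt1 hyr1 hT hR
  have LB := seg_down U V S hS hcov xL xb yB yl hxb0 hyl0 hL hB
  have BR := seg_up U V S hS hcov xb xR yB yr hxb1 hyr0 hB hR
  have uE := len_split U hU xL xt xR hxt0 hxt1
  have uC := len_split U hU xL xb xR hxb0 hxb1
  have vA := len_split V hV yB yl yT hyl0 hyl1
  have vB := len_split V hV yB yr yT hyr0 hyr1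
  have hc' : (xR - xb) / (xR - xL) = 1 - (xb - xL) / (xR - xL) := by field_simp; ring
  have he' : (xR - xt) / (xR - xL) = 1 - (xt - xL) / (xR - xL) := by field_simp; ring
  have ha' : (yT - yl) / (yT - yB) = 1 - (yl - yB) / (yT - yB) := by field_simp; ring
  have hb' : (yT - yr) / (yT - yB) = 1 - (yr - yB) / (yT - yB) := by field_simp; ring
  rcases Phi_dichotomy ((yl - yB) / (yT - yB)) ((yr - yB) / (yT - yB)) ((xb - xL) / (xR - xL))
    ((xt - xL) / (xR - xL)) (div_nonneg (by linarith) hw1.le) ((div_le_one hw1).2 (by linarith))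
    (div_nonneg (by linarith) hw1.le) ((div_le_one hw1).2 (by linarith))
    (div_nonneg (by linarith) hw2.le) ((div_le_one hw2).2 (by linarith)) with hP | hP
  · rcases le_total yl yr with hlr | hlr
    · -- case A
      have LR := seg_up U V S hS hcov xL xR yl yr hx.le hlr hL hR
      have v1 := len_split V hV yB yl yr hyl0 hlr
      have v2 := len_split V hV yl yr yT hlr hyr1
      have h := core_scaled (yT - yB) (xR - xL) hw1 hw2 (yl - yB) (yr - yB) (xb - xL) (xt - xL)
        (len U xL xt) (len U xt xR) (len U xL xb) (len U xb xR)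
        (len V yB yl) (len V yl yr) (len V yr yT)
        (by linarith) (by linarith) (by linarith) (by linarith) (by linarith) (by linarith)
        (by linarith) hP (by linarith) (len_nonneg _ _ _) (len_nonneg _ _ _) (len_nonneg _ _ _)
        (by have := len_le V yl yr hlr; linarith)
        (by rw [← v2]; linarith) (by linarith) (by linarith) (by rw [← v1]; linarith)
        (by rw [← uE]; linarith)
      rw [← uE] at h
      have : len V yB yl + len V yl yr + len V yr yT = len V yB yT := by linarith
      rw [this] at h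
      linarith
    · -- case B
      have LR := seg_down U V S hS hcov xL xR yr yl hx.le hlr hL hR
      have v1 := len_split V hV yB yr yl hyr0 hlr
      have v2 := len_split V hV yr yl yT hlr hyl1
      have h := core_scaled (yT - yB) (xR - xL) hw1 hw2 (yr - yB) (yl - yB) (xR - xb) (xR - xt)
        (len U xt xR) (len U xL xt) (len U xb xR) (len U xL xb)
        (len V yB yr) (len V yr yl) (len V yl yT)
        (by linarith) (by linarith) (by linarith) (by linarith) (by linarith) (by linarith)
        (by linarith) (by rw [hc', he', Phi_reflect]; linarith) (by linarith)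
        (len_nonneg _ _ _) (len_nonneg _ _ _) (len_nonneg _ _ _)
        (by have := len_le V yr yl hlr; linarith)
        (by rw [← v2]; linarith) (by linarith) (by linarith) (by rw [← v1]; linarith)
        (by rw [add_comm (len U xt xR), ← uE]; linarith)
      rw [add_comm (len U xt xR), ← uE] at h
      have : len V yB yr + len V yr yl + len V yl yT = len V yB yT := by linarith
      rw [this] at h
      linarith
  · rcases le_total xb xt with hbt | hbt
    · -- case C
      have BT := seg_up U V S hS hcov xb xt yB yT hbt hy.le hB hT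
      have u1 := len_split U hU xL xb xt hxb0 hbt
      have u2 := len_split U hU xb xt xR hbt hxt1
      have h := core_scaled (xR - xL) (yT - yB) hw2 hw1 (xb - xL) (xt - xL) (yl - yB) (yr - yB)
        (len V yB yr) (len V yr yT) (len V yB yl) (len V yl yT)
        (len U xL xb) (len U xb xt) (len U xt xR)
        (by linarith) (by linarith) (by linarith) (by linarith) (by linarith) (by linarith)
        (by linarith) (by rw [Phi_swap]; linarith) (by linarith)
        (len_nonneg _ _ _) (len_nonneg _ _ _) (len_nonneg _ _ _)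
        (by have := len_le U xb xt hbt; linarith)
        (by rw [← u2]; linarith) (by linarith) (by linarith) (by rw [← u1]; linarith)
        (by rw [← vB]; linarith)
      rw [← vB] at h
      have : len U xL xb + len U xb xt + len U xt xR = len U xL xR := by linarith
      rw [this] at h
      linarith
    · -- case D
      have BT := seg_down U V S hS hcov xt xb yB yT hbt hy.le hT hB
      have u1 := len_split U hU xL xt xb hxt0 hbt
      have u2 := len_split U hU xt xb xR hbt hxb1
      have h := core_scaled (xR - xL) (yT - yB) hw2 hw1 (xt - xL) (xb - xL) (yT - yl) (yT - yr)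
        (len V yr yT) (len V yB yr) (len V yl yT) (len V yB yl)
        (len U xL xt) (len U xt xb) (len U xb xR)
        (by linarith) (by linarith) (by linarith) (by linarith) (by linarith) (by linarith)
        (by linarith) (by rw [ha', hb', Phi_reflect, Phi_swap]; linarith) (by linarith)
        (len_nonneg _ _ _) (len_nonneg _ _ _) (len_nonneg _ _ _)
        (by have := len_le U xt xb hbt; linarith)
        (by rw [← u2]; linarith) (by linarith) (by linarith) (by rw [← u1]; linarith)
        (by rw [add_comm (len V yr yT), ← vB]; linarith)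
      rw [add_comm (len V yr yT), ← vB] at h
      have : len U xL xt + len U xt xb + len U xb xR = len U xL xR := by linarith
      rw [this] at h
      linarith

end Vale.Agent.P243
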