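import Vale.Agent.P243.Bang

/-! Bang's plank theorem in the plane for coverings by preimages of arbitrary subsets of the
line. -/

open Set MeasureTheory

namespace Vale.Agent.P243

lemma dot_continuous (n : ℝ × ℝ) : Continuous (dot n) := by
  unfold dot; fun_prop

lemma abs_le_one_of_unit (n : ℝ × ℝ) (hn : n.1 ^ 2 + n.2 ^ 2 = 1) : |n.1| ≤ 1 ∧ |n.2| ≤ 1 := by
  constructor
  · rw [abs_le]; constructor <;> nlinarith [sq_nonneg n.2, sq_nonneg n.1]
  · rw [abs_le]; constructor <;> nlinarith [sq_nonneg n.2, sq_nonneg n.1]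

lemma norm_le_one_of_unit (n : ℝ × ℝ) (hn : n.1 ^ 2 + n.2 ^ 2 = 1) : ‖n‖ ≤ 1 := by
  rw [Prod.norm_def]
  exact max_le (abs_le_one_of_unit n hn).1 (abs_le_one_of_unit n hn).2

lemma abs_dot_le (n p : ℝ × ℝ) (hn : n.1 ^ 2 + n.2 ^ 2 = 1) : |dot n p| ≤ 2 * ‖p‖ := by
  unfold dot
  have h1 : |p.1| ≤ ‖p‖ := norm_fst_le p
  have h2 : |p.2| ≤ ‖p‖ := norm_snd_le p
  obtain ⟨h3, h4⟩ := abs_le_one_of_unit n hn
  calc |n.1 * p.1 + n.2 * p.2| ≤ |n.1 * p.1| + |n.2 * p.2| := abs_add_le _ _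
    _ = |n.1| * |p.1| + |n.2| * |p.2| := by rw [abs_mul, abs_mul]
    _ ≤ 1 * ‖p‖ + 1 * ‖p‖ := by
        gcongr
    _ = 2 * ‖p‖ := by ring

lemma grid_cover {ι : Type*} [Fintype ι] (P : Set (ℝ × ℝ)) (hPc : IsCompact P)
    (n : ι → ℝ × ℝ) (hn : ∀ k, (n k).1 ^ 2 + (n k).2 ^ 2 = 1) (U : ι → Set ℝ)
    (hU : ∀ i, IsOpen (U i)) (hcov : ∀ p ∈ P, ∃ i, dot (n i) p ∈ U i) :
    ∃ (η : ℝ) (J : ι → Finset ℤ), 0 < η ∧
      (∀ i, ∀ j ∈ J i, Icc ((j : ℝ) * η) (((j : ℝ) + 1) * η) ⊆ U i) ∧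
      ∀ p ∈ P, ∃ i, ∃ j ∈ J i, dot (n i) p ∈ Icc ((j : ℝ) * η) (((j : ℝ) + 1) * η) := by
  classical
  have hVo : ∀ i, IsOpen (dot (n i) ⁻¹' U i) := fun i => (hU i).preimage (dot_continuous _)
  have hsub : P ⊆ ⋃ i, dot (n i) ⁻¹' U i := fun p hp => by
    obtain ⟨i, hi⟩ := hcov p hp
    exact mem_iUnion.2 ⟨i, hi⟩
  obtain ⟨δ, hδ, hleb⟩ := lebesgue_number_lemma_of_metric hPc hVo hsub
  obtain ⟨R, hR⟩ := hPc.isBounded.exists_norm_le
  set η : ℝ := δ / 2 with hη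
  have hηpos : 0 < η := by positivity
  set N : ℤ := ⌈2 * R / η⌉ + 1 with hN
  refine ⟨η, fun i => (Finset.Icc (-N) N).filter
    (fun j => Icc ((j : ℝ) * η) (((j : ℝ) + 1) * η) ⊆ U i), hηpos, ?_, ?_⟩
  · intro i j hj
    exact (Finset.mem_filter.1 hj).2
  · intro p hp
    obtain ⟨i, hi⟩ := hleb p hp
    set t := dot (n i) p with ht
    have hfl1 : ((⌊t / η⌋ : ℤ) : ℝ) * η ≤ t := by
      have := Int.floor_le (t / η)
      rwa [le_div_iff₀ hηpos] at this
    have hfl2 : t < (((⌊t / η⌋ : ℤ) : ℝ) + 1) * η := by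
      have := Int.lt_floor_add_one (t / η)
      rwa [div_lt_iff₀ hηpos] at this
    have htb : |t| ≤ 2 * R := (abs_dot_le _ _ (hn i)).trans (by linarith [hR p hp])
    have hNr : 2 * R / η + 1 ≤ (N : ℝ) := by
      rw [hN]; push_cast
      linarith [Int.le_ceil (2 * R / η)]
    have hNη : 2 * R + η ≤ (N : ℝ) * η := by
      have := mul_le_mul_of_nonneg_right hNr hηpos.le
      have e : (2 * R / η + 1) * η = 2 * R + η := by field_simp
      rwa [e] at this
    refine ⟨i, ⌊t / η⌋, ?_, ⟨hfl1, hfl2.le⟩⟩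
    rw [Finset.mem_filter, Finset.mem_Icc]
    refine ⟨⟨?_, ?_⟩, ?_⟩
    · -- -N ≤ floor
      have h1 : (-(N : ℝ)) * η < (((⌊t / η⌋ : ℤ) : ℝ) + 1) * η := by
        have := (abs_le.1 htb).1
        nlinarith
      have h2 : -(N : ℝ) < ((⌊t / η⌋ : ℤ) : ℝ) + 1 := lt_of_mul_lt_mul_right h1 hηpos.le
      have h3 : -N < ⌊t / η⌋ + 1 := by exact_mod_cast h2
      omega
    · have h1 : ((⌊t / η⌋ : ℤ) : ℝ) * η ≤ (N : ℝ) * η := by
        have := (abs_le.1 htb).2
        nlinarith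
      have h2 : ((⌊t / η⌋ : ℤ) : ℝ) ≤ (N : ℝ) := le_of_mul_le_mul_right h1 hηpos
      exact_mod_cast h2
    · intro s hs
      have hst : |s - t| ≤ η := by
        rw [abs_le]
        constructor
        · have := hs.1
          nlinarith
        · have := hs.2
          nlinarith
      have hmem : p + (s - t) • n i ∈ Metric.ball p δ := by
        rw [Metric.mem_ball, dist_eq_norm, add_sub_cancel_left, norm_smul, Real.norm_eq_abs]
        calc |s - t| * ‖n i‖ ≤ η * 1 := by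
              gcongr
              exact norm_le_one_of_unit _ (hn i)
          _ < δ := by rw [hη]; linarith
      have h2 := hi hmem
      have h3 : dot (n i) (p + (s - t) • n i) = s := by
        rw [dot_add]
        have : dot (n i) ((s - t) • n i) = (s - t) * ((n i).1 ^ 2 + (n i).2 ^ 2) := by
          unfold dot
          simp only [Prod.smul_fst, Prod.smul_snd, smul_eq_mul]
          ring
        rw [this, hn i, ← ht]
        ring
      rw [mem_preimage, h3] at h2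
      exact h2

lemma grid_measure (η : ℝ) (hη : 0 < η) (J : Finset ℤ) (U : Set ℝ)
    (h : ∀ j ∈ J, Icc ((j : ℝ) * η) (((j : ℝ) + 1) * η) ⊆ U) :
    ENNReal.ofReal ((J.card : ℝ) * η) ≤ volume U := by
  have hdis : (J : Set ℤ).PairwiseDisjoint (fun j : ℤ => Ioc ((j : ℝ) * η) (((j : ℝ) + 1) * η)) := by
    intro j _ j' _ hjj
    have key : ∀ a b : ℤ, a < b →
        Disjoint (Ioc ((a : ℝ) * η) (((a : ℝ) + 1) * η)) (Ioc ((b : ℝ) * η) (((b : ℝ) + 1) * η)) := by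
      intro a b hab
      rw [Set.disjoint_left]
      intro x hx hx'
      have h1 : (a : ℝ) + 1 ≤ (b : ℝ) := by exact_mod_cast hab
      have h2 : ((a : ℝ) + 1) * η ≤ (b : ℝ) * η := mul_le_mul_of_nonneg_right h1 hη.le
      linarith [hx.2, hx'.1]
    rcases lt_or_gt_of_ne hjj with h1 | h1
    · exact key _ _ h1
    · exact (key _ _ h1).symm
  have hvol : volume (⋃ j ∈ J, Ioc ((j : ℝ) * η) (((j : ℝ) + 1) * η))
      = ENNReal.ofReal ((J.card : ℝ) * η) := by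
    rw [measure_biUnion_finset hdis (fun _ _ => measurableSet_Ioc)]
    have : ∀ j ∈ J, volume (Ioc ((j : ℝ) * η) (((j : ℝ) + 1) * η)) = ENNReal.ofReal η := by
      intro j _
      rw [Real.volume_Ioc]
      congr 1
      ring
    rw [Finset.sum_congr rfl this, Finset.sum_const, nsmul_eq_mul,
      ENNReal.ofReal_mul (Nat.cast_nonneg _), ENNReal.ofReal_natCast]
  rw [← hvol]
  apply measure_mono
  intro x hx
  simp only [mem_iUnion] at hx
  obtain ⟨j, hj, hx⟩ := hx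
  exact h j hj (Ioc_subset_Icc_self hx)

/-- Bang's plank theorem in the plane, for coverings by preimages of arbitrary subsets of the
line under unit linear functionals. -/
theorem plank_meas {ι : Type*} [Fintype ι] (P : Set (ℝ × ℝ)) (hP : Convex ℝ P)
    (hPc : IsCompact P) (w : ℝ)
    (hch : ∀ e : ℝ × ℝ, e.1 ^ 2 + e.2 ^ 2 = 1 → ∃ a ∈ P, a + w • e ∈ P)
    (n : ι → ℝ × ℝ) (hn : ∀ k, (n k).1 ^ 2 + (n k).2 ^ 2 = 1) (E : ι → Set ℝ)
    (hcov : ∀ p ∈ P, ∃ i, dot (n i) p ∈ E i) :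
    ENNReal.ofReal w ≤ ∑ i, volume (E i) := by
  classical
  by_contra hlt
  rw [not_le] at hlt
  obtain ⟨r, hr, hr2⟩ := ENNReal.lt_iff_exists_add_pos_lt.1 hlt
  obtain ⟨ε, hε, hεsum⟩ := ENNReal.exists_pos_sum_of_countable
    (ε := (r : ENNReal)) (by exact_mod_cast hr.ne') ι
  rw [tsum_fintype] at hεsum
  have hex : ∀ i, ∃ U, U ⊇ E i ∧ IsOpen U ∧ volume U ≤ volume (E i) + ε i := fun i =>
    (E i).exists_isOpen_le_add volume (by exact_mod_cast (hε i).ne')
  choose U hUE hUo hUv using hex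
  have hUsum : ∑ i, volume (U i) < ENNReal.ofReal w := by
    calc ∑ i, volume (U i) ≤ ∑ i, (volume (E i) + ε i) := Finset.sum_le_sum (fun i _ => hUv i)
      _ = ∑ i, volume (E i) + ∑ i, (ε i : ENNReal) := Finset.sum_add_distrib
      _ ≤ ∑ i, volume (E i) + r := by gcongr
      _ < ENNReal.ofReal w := hr2
  obtain ⟨η, J, hη, hJU, hJc⟩ := grid_cover P hPc n hn U hUo (fun p hp => by
    obtain ⟨i, hi⟩ := hcov p hp
    exact ⟨i, hUE i hi⟩)
  have hsum : ∑ i, ((J i).card : ℝ) * η < w := by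
    have h1 : ENNReal.ofReal (∑ i, ((J i).card : ℝ) * η) < ENNReal.ofReal w := by
      rw [ENNReal.ofReal_sum_of_nonneg (fun i _ => by positivity)]
      exact lt_of_le_of_lt (Finset.sum_le_sum (fun i _ => grid_measure η hη (J i) (U i) (hJU i)))
        hUsum
    exact (ENNReal.ofReal_lt_ofReal_iff_of_nonneg
      (Finset.sum_nonneg (fun i _ => by positivity))).1 h1
  obtain ⟨p, hp, hpn⟩ := plank (κ := Σ i, {j // j ∈ J i}) P hP w hch (fun k => n k.1)
    (fun k => hn k.1) (fun k => ((k.2 : ℤ) : ℝ) * η) (fun k => (((k.2 : ℤ) : ℝ) + 1) * η)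
    (fun k => by nlinarith) (by
      rw [Fintype.sum_sigma]
      refine lt_of_le_of_lt (le_of_eq ?_) hsum
      refine Finset.sum_congr rfl (fun i _ => ?_)
      have : ∀ y : {j // j ∈ J i}, (((y : ℤ) : ℝ) + 1) * η - ((y : ℤ) : ℝ) * η = η := by
        intro y; ring
      simp only [this, Finset.sum_const, Finset.card_univ, Fintype.card_coe, nsmul_eq_mul])
  obtain ⟨i, j, hj, hij⟩ := hJc p hp
  exact hpn ⟨i, ⟨j, hj⟩⟩ hij

end Vale.Agent.P243
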