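import Mathlib

open MeasureTheory Set

namespace Vale.Agent.P243

/-- volume of the preimage of a set under an affine map of the line -/
lemma volume_preimage_affine (k m : ℝ) (hm : m ≠ 0) (s : Set ℝ) :
    volume ((fun t : ℝ => k + m * t) ⁻¹' s) = ENNReal.ofReal |m⁻¹| * volume s := by
  have h1 : (fun t : ℝ => k + m * t) ⁻¹' s
      = (fun t : ℝ => m * t) ⁻¹' ((fun t : ℝ => k + t) ⁻¹' s) := rfl
  rw [h1, Real.volume_preimage_mul_left hm, measure_preimage_add]

lemma affine_mem_uIcc (x0 x1 t : ℝ) (ht : t ∈ Icc (0 : ℝ) 1) :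
    x0 + (x1 - x0) * t ∈ uIcc x0 x1 := by
  obtain ⟨h0, h1⟩ := ht
  rcases le_total x0 x1 with h | h
  · rw [uIcc_of_le h]
    constructor <;> nlinarith
  · rw [uIcc_of_ge h]
    constructor <;> nlinarith

/-- the length of the part of `U` inside an interval -/
noncomputable def len (U : Set ℝ) (p q : ℝ) : ℝ := volume.real (U ∩ uIcc p q)

lemma len_nonneg (U : Set ℝ) (p q : ℝ) : 0 ≤ len U p q := measureReal_nonneg

lemma inter_uIcc_ne_top (U : Set ℝ) (p q : ℝ) : volume (U ∩ uIcc p q) ≠ ⊤ := by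
  refine ne_top_of_le_ne_top ?_ (measure_mono inter_subset_right)
  rw [uIcc, Real.volume_Icc]
  exact ENNReal.ofReal_ne_top

lemma len_le (U : Set ℝ) (p q : ℝ) (h : p ≤ q) : len U p q ≤ q - p := by
  unfold len
  have h1 : volume.real (U ∩ uIcc p q) ≤ volume.real (uIcc p q) := by
    exact measureReal_mono inter_subset_right
      (by rw [uIcc, Real.volume_Icc]; exact ENNReal.ofReal_ne_top)
  rw [uIcc_of_le h] at h1 ⊢
  rw [Real.volume_real_Icc_of_le h] at h1
  exact h1

lemma len_split (U : Set ℝ) (hU : MeasurableSet U) (p q r : ℝ) (h1 : p ≤ q) (h2 : q ≤ r) :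
    len U p r = len U p q + len U q r := by
  unfold len
  rw [uIcc_of_le h1, uIcc_of_le h2, uIcc_of_le (h1.trans h2)]
  have hun : U ∩ Icc p r = (U ∩ Icc p q) ∪ (U ∩ Ioc q r) := by
    rw [← inter_union_distrib_left, Icc_union_Ioc_eq_Icc h1 h2]
  have hdis : Disjoint (U ∩ Icc p q) (U ∩ Ioc q r) := by
    apply Disjoint.mono inter_subset_right inter_subset_right
    rw [Set.disjoint_left]
    intro x hx hx'
    exact absurd hx.2 (not_le.mpr hx'.1)
  have hfin1 : volume (U ∩ Icc p q) ≠ ⊤ := by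
    have := inter_uIcc_ne_top U p q; rwa [uIcc_of_le h1] at this
  have hfin2 : volume (U ∩ Ioc q r) ≠ ⊤ := by
    have := inter_uIcc_ne_top U q r
    rw [uIcc_of_le h2] at this
    exact ne_top_of_le_ne_top this (measure_mono (inter_subset_inter_right _ Ioc_subset_Icc_self))
  rw [hun, measureReal_union hdis (hU.inter measurableSet_Ioc) hfin1 hfin2]
  congr 1
  have : (U ∩ Ioc q r : Set ℝ) =ᵐ[volume] (U ∩ Icc q r : Set ℝ) :=
    (ae_eq_refl U).inter Ioc_ae_eq_Icc
  exact measureReal_congr this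

/-- The segment inequality: if every point of the segment from `(x0,y0)` to `(x1,y1)` has its
first coordinate in `U` or its second coordinate in `V`, then the relative lengths of `U` and `V`
in the two shadows of the segment add up to at least one (written without divisions). -/
lemma seg_ineq (U V : Set ℝ) (x0 x1 y0 y1 : ℝ)
    (hcov : ∀ t ∈ Icc (0 : ℝ) 1, x0 + (x1 - x0) * t ∈ U ∨ y0 + (y1 - y0) * t ∈ V) :
    |x1 - x0| * |y1 - y0| ≤ |y1 - y0| * len U x0 x1 + |x1 - x0| * len V y0 y1 := by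
  by_cases hx : x1 - x0 = 0
  · rw [hx]; simp
    exact mul_nonneg (abs_nonneg _) (len_nonneg _ _ _)
  by_cases hy : y1 - y0 = 0
  · rw [hy]; simp
    exact mul_nonneg (abs_nonneg _) (len_nonneg _ _ _)
  have hsub : Icc (0 : ℝ) 1 ⊆ ((fun t : ℝ => x0 + (x1 - x0) * t) ⁻¹' (U ∩ uIcc x0 x1))
      ∪ ((fun t : ℝ => y0 + (y1 - y0) * t) ⁻¹' (V ∩ uIcc y0 y1)) := by
    intro t ht
    rcases hcov t ht with h | h
    · exact Or.inl ⟨h, affine_mem_uIcc x0 x1 t ht⟩
    · exact Or.inr ⟨h, affine_mem_uIcc y0 y1 t ht⟩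
  have h1 : (1 : ENNReal) ≤ ENNReal.ofReal |(x1 - x0)⁻¹| * volume (U ∩ uIcc x0 x1)
      + ENNReal.ofReal |(y1 - y0)⁻¹| * volume (V ∩ uIcc y0 y1) := by
    have := (measure_mono hsub).trans (measure_union_le (μ := volume) _ _)
    rw [volume_preimage_affine _ _ hx, volume_preimage_affine _ _ hy, Real.volume_Icc] at this
    simpa using this
  have hU : volume (U ∩ uIcc x0 x1) = ENNReal.ofReal (len U x0 x1) :=
    (ofReal_measureReal (inter_uIcc_ne_top U x0 x1)).symm
  have hV : volume (V ∩ uIcc y0 y1) = ENNReal.ofReal (len V y0 y1) :=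
    (ofReal_measureReal (inter_uIcc_ne_top V y0 y1)).symm
  rw [hU, hV, ← ENNReal.ofReal_mul (abs_nonneg _), ← ENNReal.ofReal_mul (abs_nonneg _),
    ← ENNReal.ofReal_add (mul_nonneg (abs_nonneg _) (len_nonneg _ _ _))
      (mul_nonneg (abs_nonneg _) (len_nonneg _ _ _)), ENNReal.one_le_ofReal] at h1
  have hxp : 0 < |x1 - x0| := abs_pos.mpr hx
  have hyp : 0 < |y1 - y0| := abs_pos.mpr hy
  rw [abs_inv, abs_inv] at h1
  have h2 : |x1 - x0| * |y1 - y0| * 1 ≤ |x1 - x0| * |y1 - y0| *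
      (|x1 - x0|⁻¹ * len U x0 x1 + |y1 - y0|⁻¹ * len V y0 y1) :=
    mul_le_mul_of_nonneg_left h1 (by positivity)
  have h3 : |x1 - x0| * |y1 - y0| * (|x1 - x0|⁻¹ * len U x0 x1 + |y1 - y0|⁻¹ * len V y0 y1)
      = |y1 - y0| * len U x0 x1 + |x1 - x0| * len V y0 y1 := by
    field_simp
  linarith

end Vale.Agent.P243
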