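import Vale.Agent.P243.Planar

open MeasureTheory Set

namespace Vale.Agent.P243

lemma ofReal_len_le (U : Set ℝ) (p q : ℝ) : ENNReal.ofReal (len U p q) ≤ volume U := by
  unfold len
  rw [ofReal_measureReal (inter_uIcc_ne_top U p q)]
  exact measure_mono inter_subset_left

/-- The horizontal slice of `K` at the height `A.z + τ (c - A.z)` contains a copy, scaled by `τ`,
of the slice at height `c`; the planar lemma applied to that copy. -/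
lemma slice_bound (K : Set (ℝ × ℝ × ℝ)) (hK : Convex ℝ K) (B1 B2 : Set (ℝ × ℝ))
    (hB1 : MeasurableSet B1) (hB2 : MeasurableSet B2)
    (hcov : ∀ p ∈ K, p.2 ∈ B1 ∨ (p.1, p.2.2) ∈ B2)
    (A pL pR pB pT : ℝ × ℝ × ℝ) (hA : A ∈ K) (hL : pL ∈ K) (hR : pR ∈ K) (hB : pB ∈ K)
    (hT : pT ∈ K) (c : ℝ) (hLc : pL.2.2 = c) (hRc : pR.2.2 = c) (hBc : pB.2.2 = c)
    (hTc : pT.2.2 = c) (hx : pL.1 < pR.1) (hy : pB.2.1 < pT.2.1)
    (hyl : pL.2.1 ∈ Icc pB.2.1 pT.2.1) (hyr : pR.2.1 ∈ Icc pB.2.1 pT.2.1)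
    (hxb : pB.1 ∈ Icc pL.1 pR.1) (hxt : pT.1 ∈ Icc pL.1 pR.1)
    (τ : ℝ) (hτ0 : 0 < τ) (hτ1 : τ ≤ 1) :
    ENNReal.ofReal (τ * ((pR.1 - pL.1) * (pT.2.1 - pB.2.1)))
      ≤ ENNReal.ofReal (pT.2.1 - pB.2.1)
          * volume ((fun x : ℝ => (x, A.2.2 + τ * (c - A.2.2))) ⁻¹' B2)
        + ENNReal.ofReal (pR.1 - pL.1)
          * volume ((fun y : ℝ => (y, A.2.2 + τ * (c - A.2.2))) ⁻¹' B1) := by
  set z : ℝ := A.2.2 + τ * (c - A.2.2) with hz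
  set U : Set ℝ := (fun x : ℝ => (x, z)) ⁻¹' B2 with hU
  set V : Set ℝ := (fun y : ℝ => (y, z)) ⁻¹' B1 with hV
  have hUm : MeasurableSet U := measurable_prodMk_right hB2
  have hVm : MeasurableSet V := measurable_prodMk_right hB1
  set S : Set (ℝ × ℝ) := {q | (q.1, q.2, z) ∈ K} with hS
  have hSc : Convex ℝ S := by
    intro p hp q hq α β hα hβ hαβ
    have := hK hp hq hα hβ hαβ
    have e : α • (p.1, p.2, z) + β • (q.1, q.2, z) = ((α • p + β • q).1, (α • p + β • q).2, z) := by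
      ext
      · simp
      · simp
      · simp only [Prod.snd_add, Prod.smul_snd, smul_eq_mul]
        rw [← add_mul, hαβ, one_mul]
    rw [e] at this
    exact this
  have hmem : ∀ p ∈ K, p.2.2 = c →
      (A.1 + τ * (p.1 - A.1), A.2.1 + τ * (p.2.1 - A.2.1)) ∈ S := by
    intro p hp hpc
    have := hK.add_smul_sub_mem hA hp ⟨hτ0.le, hτ1⟩
    have e : A + τ • (p - A) = (A.1 + τ * (p.1 - A.1), A.2.1 + τ * (p.2.1 - A.2.1), z) := by
      ext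
      · simp
      · simp
      · simp [hz, hpc]
    rw [e] at this
    exact this
  have hScov : ∀ q ∈ S, q.1 ∈ U ∨ q.2 ∈ V := by
    intro q hq
    rcases hcov _ hq with h | h
    · right; exact h
    · left; exact h
  have hmono : ∀ s t : ℝ, s ≤ t → ∀ k : ℝ, k + τ * (s - k) ≤ k + τ * (t - k) := by
    intro s t hst k
    have := mul_le_mul_of_nonneg_left hst hτ0.le
    linarith
  have hpl := planar U V hUm hVm (A.1 + τ * (pL.1 - A.1)) (A.1 + τ * (pR.1 - A.1))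
    (A.2.1 + τ * (pB.2.1 - A.2.1)) (A.2.1 + τ * (pT.2.1 - A.2.1))
    (A.2.1 + τ * (pL.2.1 - A.2.1)) (A.2.1 + τ * (pR.2.1 - A.2.1))
    (A.1 + τ * (pB.1 - A.1)) (A.1 + τ * (pT.1 - A.1))
    (by have := mul_lt_mul_of_pos_left hx hτ0; linarith)
    (by have := mul_lt_mul_of_pos_left hy hτ0; linarith)
    ⟨hmono _ _ hyl.1 _, hmono _ _ hyl.2 _⟩ ⟨hmono _ _ hyr.1 _, hmono _ _ hyr.2 _⟩
    ⟨hmono _ _ hxb.1 _, hmono _ _ hxb.2 _⟩ ⟨hmono _ _ hxt.1 _, hmono _ _ hxt.2 _⟩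
    S hSc (hmem pL hL hLc) (hmem pR hR hRc) (hmem pB hB hBc) (hmem pT hT hTc) hScov
  set lu := len U (A.1 + τ * (pL.1 - A.1)) (A.1 + τ * (pR.1 - A.1)) with hlu
  set lv := len V (A.2.1 + τ * (pB.2.1 - A.2.1)) (A.2.1 + τ * (pT.2.1 - A.2.1)) with hlv
  have hlu0 : 0 ≤ lu := len_nonneg _ _ _
  have hlv0 : 0 ≤ lv := len_nonneg _ _ _
  have hw1 : 0 < pT.2.1 - pB.2.1 := sub_pos.2 hy
  have hw2 : 0 < pR.1 - pL.1 := sub_pos.2 hx
  have hreal : τ * ((pR.1 - pL.1) * (pT.2.1 - pB.2.1))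
      ≤ (pT.2.1 - pB.2.1) * lu + (pR.1 - pL.1) * lv := by
    have h1 : τ * (τ * ((pR.1 - pL.1) * (pT.2.1 - pB.2.1)))
        ≤ τ * ((pT.2.1 - pB.2.1) * lu + (pR.1 - pL.1) * lv) := by
      linarith
    exact le_of_mul_le_mul_left h1 hτ0
  calc ENNReal.ofReal (τ * ((pR.1 - pL.1) * (pT.2.1 - pB.2.1)))
      ≤ ENNReal.ofReal ((pT.2.1 - pB.2.1) * lu + (pR.1 - pL.1) * lv) :=
        ENNReal.ofReal_le_ofReal hreal
    _ = ENNReal.ofReal (pT.2.1 - pB.2.1) * ENNReal.ofReal lu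
        + ENNReal.ofReal (pR.1 - pL.1) * ENNReal.ofReal lv := by
        rw [ENNReal.ofReal_add (mul_nonneg hw1.le hlu0) (mul_nonneg hw2.le hlv0),
          ENNReal.ofReal_mul hw1.le, ENNReal.ofReal_mul hw2.le]
    _ ≤ ENNReal.ofReal (pT.2.1 - pB.2.1) * volume U
        + ENNReal.ofReal (pR.1 - pL.1) * volume V := by
        gcongr
        · exact ofReal_len_le _ _ _
        · exact ofReal_len_le _ _ _

end Vale.Agent.P243
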