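import Mathlib

/-! Sweeping a planar convex set along a horizontal segment. -/

open Set MeasureTheory

namespace Vale.Agent.P243

/-- the set swept by `A` under horizontal translations by at most `ρ` -/
def sweep (A : Set (ℝ × ℝ)) (ρ : ℝ) : Set (ℝ × ℝ) :=
  (fun q : (ℝ × ℝ) × ℝ => (q.1.1 + q.2, q.1.2)) '' (A ×ˢ Icc (-ρ) ρ)

lemma sweep_compact (A : Set (ℝ × ℝ)) (hA : IsCompact A) (ρ : ℝ) : IsCompact (sweep A ρ) := by
  unfold sweep
  exact (hA.prod isCompact_Icc).image (by fun_prop)

/-- a nonempty horizontal section of a compact set has extreme points -/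
lemma hsec_ends (A : Set (ℝ × ℝ)) (hA : IsCompact A) (c : ℝ) (hne : ∃ x, (x, c) ∈ A) :
    ∃ a b : ℝ, (a, c) ∈ A ∧ (b, c) ∈ A ∧ ∀ x, (x, c) ∈ A → x ∈ Icc a b := by
  have hcomp : IsCompact (A ∩ {p | p.2 = c}) :=
    hA.inter_right (isClosed_eq continuous_snd continuous_const)
  obtain ⟨x0, hx0⟩ := hne
  have hne' : (A ∩ {p | p.2 = c}).Nonempty := ⟨(x0, c), hx0, rfl⟩
  obtain ⟨pm, hpm, hmin⟩ := hcomp.exists_isMinOn hne' continuous_fst.continuousOn
  obtain ⟨pM, hpM, hmax⟩ := hcomp.exists_isMaxOn hne' continuous_fst.continuousOn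
  refine ⟨pm.1, pM.1, ?_, ?_, ?_⟩
  · have : pm = (pm.1, c) := Prod.ext rfl hpm.2
    rw [← this]; exact hpm.1
  · have : pM = (pM.1, c) := Prod.ext rfl hpM.2
    rw [← this]; exact hpM.1
  · intro t ht
    exact ⟨hmin ⟨ht, rfl⟩, hmax ⟨ht, rfl⟩⟩

lemma sweep_area (A : Set (ℝ × ℝ)) (hA : IsCompact A) (hconv : Convex ℝ A) (ρ L : ℝ)
    (hρ : 0 ≤ ρ) (hL : 0 < L)
    (hch : ∀ a b c : ℝ, (a, c) ∈ A → (b, c) ∈ A → b - a ≤ L) :
    ENNReal.ofReal (1 + 2 * ρ / L) * volume A ≤ volume (sweep A ρ) := by
  have hAm : MeasurableSet A := hA.isClosed.measurableSet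
  have hSm : MeasurableSet (sweep A ρ) := (sweep_compact A hA ρ).isClosed.measurableSet
  rw [Measure.volume_eq_prod, Measure.prod_apply_symm hAm, Measure.prod_apply_symm hSm,
    ← lintegral_const_mul _ (measurable_measure_prodMk_right hAm)]
  apply lintegral_mono
  intro c
  by_cases hne : ∃ x, (x, c) ∈ A
  · obtain ⟨a, b, ha, hb, hab⟩ := hsec_ends A hA c hne
    have hle : a ≤ b := (hab a ha).2
    have h1 : volume ((fun x : ℝ => (x, c)) ⁻¹' A) ≤ ENNReal.ofReal (b - a) := by
      rw [← Real.volume_Icc]
      exact measure_mono (fun x hx => hab x hx)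
    have h2 : ENNReal.ofReal (b - a + 2 * ρ) ≤ volume ((fun x : ℝ => (x, c)) ⁻¹' sweep A ρ) := by
      have : b - a + 2 * ρ = (b + ρ) - (a - ρ) := by ring
      rw [this, ← Real.volume_Icc]
      apply measure_mono
      intro x hx
      -- clamp
      set x' : ℝ := max a (min x b) with hx'
      have hx'1 : a ≤ x' := le_max_left _ _
      have hx'2 : x' ≤ b := max_le hle (min_le_right _ _)
      have hmem : (x', c) ∈ A := by
        rcases eq_or_lt_of_le hle with h | h
        · have : x' = a := le_antisymm (by rw [h]; exact hx'2) hx'1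
          rw [this]; exact ha
        · have hpos : 0 < b - a := sub_pos.2 h
          have ht : (x' - a) / (b - a) ∈ Icc (0 : ℝ) 1 :=
            ⟨div_nonneg (sub_nonneg.2 hx'1) hpos.le, (div_le_one hpos).2 (by linarith)⟩
          have := hconv.add_smul_sub_mem ha hb ht
          convert this using 1
          ext
          · simp only [Prod.fst_add, Prod.smul_fst, Prod.fst_sub, smul_eq_mul]
            field_simp
            ring
          · simp
      refine ⟨((x', c), x - x'), ⟨hmem, ?_⟩, ?_⟩
      · constructor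
        · rcases le_total x a with h | h
          · have : x' = a := by
              rw [hx', min_eq_left (h.trans hle), max_eq_left h]
            rw [this]; linarith [hx.1]
          · have : x' ≤ x := max_le h (min_le_left _ _)
            linarith
        · rcases le_total x b with h | h
          · have : x ≤ x' := by
              rw [hx', min_eq_left h]; exact le_max_right _ _
            linarith
          · have : x' = b := by
              rw [hx', min_eq_right h, max_eq_right hle]
            rw [this]; linarith [hx.2]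
      · simp
    calc ENNReal.ofReal (1 + 2 * ρ / L) * volume ((fun x : ℝ => (x, c)) ⁻¹' A)
        ≤ ENNReal.ofReal (1 + 2 * ρ / L) * ENNReal.ofReal (b - a) := by gcongr
      _ = ENNReal.ofReal ((1 + 2 * ρ / L) * (b - a)) :=
          (ENNReal.ofReal_mul (by positivity)).symm
      _ ≤ ENNReal.ofReal (b - a + 2 * ρ) := by
          apply ENNReal.ofReal_le_ofReal
          have h3 : b - a ≤ L := hch a b c ha hb
          have h4 : 2 * ρ / L * (b - a) ≤ 2 * ρ := by
            rw [div_mul_eq_mul_div, div_le_iff₀ hL]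
            nlinarith
          nlinarith
      _ ≤ _ := h2
  · have : (fun x : ℝ => (x, c)) ⁻¹' A = ∅ := by
      ext x
      simp only [mem_preimage, mem_empty_iff_false, iff_false]
      exact fun hx => hne ⟨x, hx⟩
    simp only [this]
    simp

end Vale.Agent.P243
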