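import Vale.Agent.P243.Sym1

/-! Volume of a centrally symmetric convex body from one chord and the shadow. -/

open Set MeasureTheory
open scoped Pointwise

namespace Vale.Agent.P243

lemma chord_hull (K : Set (ℝ × ℝ × ℝ)) (hconv : Convex ℝ K) (hsymm : ∀ x ∈ K, -x ∈ K)
    (r ℓ z0 : ℝ) (hr : 0 ≤ r) (h1 : (z0, r, (0 : ℝ)) ∈ K) (h2 : (z0 + ℓ, r, (0 : ℝ)) ∈ K)
    (σ : ℝ) (hσ : |σ| ≤ r) :
    ∃ z, (z, σ, (0 : ℝ)) ∈ K ∧ (z + ℓ, σ, (0 : ℝ)) ∈ K := by
  rcases hr.eq_or_lt with h0 | hpos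
  · have : σ = r := by
      rw [← h0] at hσ ⊢
      exact abs_nonpos_iff.1 hσ
    rw [this]
    exact ⟨z0, h1, h2⟩
  · obtain ⟨hσ1, hσ2⟩ := abs_le.1 hσ
    set α : ℝ := (r + σ) / (2 * r) with hα
    have hα0 : 0 ≤ α := div_nonneg (by linarith) (by linarith)
    have hα1 : α ≤ 1 := (div_le_one (by linarith)).2 (by linarith)
    have hασ : α * r - (1 - α) * r = σ := by
      rw [hα]; field_simp; ring
    have n1 := hsymm _ h1
    have n2 := hsymm _ h2
    have m1 := hconv h1 n2 hα0 (sub_nonneg.2 hα1) (by ring)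
    have m2 := hconv h2 n1 hα0 (sub_nonneg.2 hα1) (by ring)
    refine ⟨α * z0 - (1 - α) * (z0 + ℓ), ?_, ?_⟩
    · convert m1 using 1
      ext
      · simp; ring
      · simp; linarith
      · simp
    · convert m2 using 1
      ext
      · simp; ring
      · simp; linarith
      · simp

lemma level_sub (K : Set (ℝ × ℝ × ℝ)) (hconv : Convex ℝ K) (hsymm : ∀ x ∈ K, -x ∈ K)
    (r ℓ z0 : ℝ) (hr : 0 ≤ r) (h1 : (z0, r, (0 : ℝ)) ∈ K) (h2 : (z0 + ℓ, r, (0 : ℝ)) ∈ K)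
    (lam : ℝ) (hl0 : 0 < lam) (hl1 : lam ≤ 1) (p : ℝ × ℝ)
    (hp : p ∈ sweep ((1 - lam) • (Prod.snd '' K)) (lam * r)) :
    ∃ z, (z, p) ∈ K ∧ (z + lam * ℓ, p) ∈ K := by
  obtain ⟨⟨q, τ⟩, ⟨hq, hτ⟩, rfl⟩ := hp
  obtain ⟨d, ⟨k, hk, rfl⟩, rfl⟩ := hq
  simp only at hτ ⊢
  have hσ : |τ / lam| ≤ r := by
    rw [abs_div, abs_of_pos hl0, div_le_iff₀ hl0, abs_le]
    constructor <;> linarith [hτ.1, hτ.2]
  obtain ⟨z, hz1, hz2⟩ := chord_hull K hconv hsymm r ℓ z0 hr h1 h2 (τ / lam) hσ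
  have m1 := hconv hz1 hk hl0.le (sub_nonneg.2 hl1) (by ring)
  have m2 := hconv hz2 hk hl0.le (sub_nonneg.2 hl1) (by ring)
  have e : lam * (τ / lam) = τ := by field_simp
  refine ⟨lam * z + (1 - lam) * k.1, ?_, ?_⟩
  · convert m1 using 1
    ext
    · simp
    · simp [e]; ring
    · simp
  · convert m2 using 1
    ext
    · simp; ring
    · simp [e]; ring
    · simp

lemma quad_integral (a1 a2 ℓ : ℝ) :
    ∫ t in (0 : ℝ)..ℓ, (1 + a1 * t + a2 * t ^ 2) = ℓ + a1 * ℓ ^ 2 / 2 + a2 * ℓ ^ 3 / 3 := by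
  rw [intervalIntegral.integral_add, intervalIntegral.integral_add]
  · have h1 : ∫ t in (0 : ℝ)..ℓ, a1 * t = a1 * (ℓ ^ 2 / 2) := by
      rw [intervalIntegral.integral_const_mul, integral_id]
      ring
    have h2 : ∫ t in (0 : ℝ)..ℓ, a2 * t ^ 2 = a2 * (ℓ ^ 3 / 3) := by
      rw [intervalIntegral.integral_const_mul, integral_pow]
      norm_num
    rw [h1, h2]
    simp
    ring
  all_goals (apply Continuous.intervalIntegrable; fun_prop)

lemma poly_lintegral (ℓ κ : ℝ) (hℓ : 0 < ℓ) (hκ : 0 ≤ κ) :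
    ∫⁻ t in Ioo 0 ℓ, ENNReal.ofReal ((1 - t / ℓ) ^ 2 + t / ℓ * (1 - t / ℓ) * κ)
      = ENNReal.ofReal (ℓ * (2 + κ) / 6) := by
  have hcont : Continuous (fun t : ℝ => (1 - t / ℓ) ^ 2 + t / ℓ * (1 - t / ℓ) * κ) := by fun_prop
  rw [← ofReal_integral_eq_lintegral_ofReal
    ((hcont.integrableOn_Icc (a := 0) (b := ℓ)).mono_set Ioo_subset_Icc_self)
    ((ae_restrict_iff' measurableSet_Ioo).2 (Filter.Eventually.of_forall (fun t ht => by
      have h1 : 0 ≤ t / ℓ := div_nonneg ht.1.le hℓ.le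
      have h2 : t / ℓ ≤ 1 := (div_le_one hℓ).2 ht.2.le
      have h3 : 0 ≤ 1 - t / ℓ := sub_nonneg.2 h2
      show (0 : ℝ) ≤ (1 - t / ℓ) ^ 2 + t / ℓ * (1 - t / ℓ) * κ
      positivity)))]
  congr 1
  rw [← integral_Ioc_eq_integral_Ioo, ← intervalIntegral.integral_of_le hℓ.le]
  have e : ∀ t : ℝ, (1 - t / ℓ) ^ 2 + t / ℓ * (1 - t / ℓ) * κ
      = 1 + ((κ - 2) / ℓ) * t + ((1 - κ) / ℓ ^ 2) * t ^ 2 := by
    intro t
    field_simp
    ring
  simp only [e]
  rw [quad_integral]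
  field_simp
  ring

/-- If a centrally symmetric convex body has a vertical chord of length `ℓ` over the point `(r,0)`
of its shadow, and the shadow meets the positive horizontal axis in `[0,R]`, then its volume is at
least `ℓ (2 + r/R) / 6` times the area of the shadow. -/
lemma vol_lower (K : Set (ℝ × ℝ × ℝ)) (hconv : Convex ℝ K) (hcomp : IsCompact K)
    (hsymm : ∀ x ∈ K, -x ∈ K) (r R ℓ z0 : ℝ) (hr : 0 ≤ r) (hR : 0 < R)
    (hRmax : ∀ x : ℝ, (x, (0 : ℝ)) ∈ Prod.snd '' K → x ≤ R)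
    (h1 : (z0, r, (0 : ℝ)) ∈ K) (h2 : (z0 + ℓ, r, (0 : ℝ)) ∈ K) (hℓ : 0 ≤ ℓ) :
    ENNReal.ofReal (ℓ * (2 + r / R) / 6) * volume (Prod.snd '' K) ≤ volume K := by
  rcases hℓ.eq_or_lt with h0 | hℓpos
  · rw [← h0]; simp
  set D : Set (ℝ × ℝ) := Prod.snd '' K with hD
  have hDc : IsCompact D := hcomp.image continuous_snd
  have hDconv : Convex ℝ D := hconv.is_linear_image ⟨fun _ _ => rfl, fun _ _ => rfl⟩
  have hDsymm : ∀ d ∈ D, -d ∈ D := by
    rintro _ ⟨k, hk, rfl⟩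
    exact ⟨-k, hsymm k hk, rfl⟩
  have hKm : MeasurableSet K := hcomp.isClosed.measurableSet
  set f : ℝ × ℝ → ENNReal := fun p => volume ((fun z : ℝ => (z, p)) ⁻¹' K) with hf
  have hfm : Measurable f := measurable_measure_prodMk_right hKm
  have hvol : volume K = ∫⁻ p, f p := by
    rw [Measure.volume_eq_prod, Measure.prod_apply_symm hKm]
  have hfin : ∀ p, f p < ⊤ := by
    intro p
    refine lt_of_le_of_lt (measure_mono ?_) (hcomp.image continuous_fst).measure_lt_top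
    intro z hz
    exact ⟨(z, p), hz, rfl⟩
  have hlc := lintegral_eq_lintegral_meas_le (volume : Measure (ℝ × ℝ))
    (f := fun p => (f p).toReal) (Filter.Eventually.of_forall (fun p => ENNReal.toReal_nonneg))
    hfm.ennreal_toReal.aemeasurable
  have hof : ∀ p, ENNReal.ofReal (f p).toReal = f p := fun p => ENNReal.ofReal_toReal (hfin p).ne
  simp only [hof] at hlc
  rw [hvol, hlc]
  have hκ : 0 ≤ r / R := div_nonneg hr hR.le
  rw [← poly_lintegral ℓ (r / R) hℓpos hκ, ← lintegral_mul_const' _ _ hDc.measure_lt_top.ne]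
  refine le_trans ?_ (lintegral_mono_set (s := Ioo (0 : ℝ) ℓ) Ioo_subset_Ioi_self)
  apply setLIntegral_mono' measurableSet_Ioo
  intro t ht
  set lam : ℝ := t / ℓ with hlam
  have hl0 : 0 < lam := div_pos ht.1 hℓpos
  have hl1 : lam < 1 := (div_lt_one hℓpos).2 ht.2
  have hm : 0 < 1 - lam := sub_pos.2 hl1
  have hlt : lam * ℓ = t := by rw [hlam]; field_simp
  -- the level set contains a swept set
  have hsub : sweep ((1 - lam) • D) (lam * r) ⊆ {p | t ≤ (f p).toReal} := by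
    intro p hp
    obtain ⟨z, hz1, hz2⟩ := level_sub K hconv hsymm r ℓ z0 hr h1 h2 lam hl0 hl1.le p hp
    have hsec : Icc z (z + lam * ℓ) ⊆ (fun z : ℝ => (z, p)) ⁻¹' K := by
      intro x hx
      have hpos : 0 < lam * ℓ := mul_pos hl0 hℓpos
      have hs : (x - z) / (lam * ℓ) ∈ Icc (0 : ℝ) 1 :=
        ⟨div_nonneg (sub_nonneg.2 hx.1) hpos.le, (div_le_one hpos).2 (by linarith [hx.2])⟩
      have := hconv.add_smul_sub_mem hz1 hz2 hs
      rw [mem_preimage]
      convert this using 1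
      ext
      · simp only [Prod.fst_add, Prod.smul_fst, Prod.fst_sub, smul_eq_mul]
        field_simp
        ring
      · simp
      · simp
    have h3 : ENNReal.ofReal t ≤ f p := by
      have := measure_mono (μ := volume) hsec
      rw [Real.volume_Icc] at this
      have e : z + lam * ℓ - z = t := by rw [← hlt]; ring
      rwa [e] at this
    exact (ENNReal.ofReal_le_iff_le_toReal (hfin p).ne).1 h3
  refine le_trans ?_ (measure_mono hsub)
  have hAc : IsCompact ((1 - lam) • D) := hDc.smul (1 - lam)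
  have hAconv : Convex ℝ ((1 - lam) • D) := hDconv.smul (1 - lam)
  have hch : ∀ a b c : ℝ, (a, c) ∈ (1 - lam) • D → (b, c) ∈ (1 - lam) • D →
      b - a ≤ 2 * (1 - lam) * R := by
    intro a b c ha hb
    obtain ⟨da, hda, hae⟩ := ha
    obtain ⟨db, hdb, hbe⟩ := hb
    have hmid := hDconv hdb (hDsymm da hda) (by norm_num : (0 : ℝ) ≤ 1 / 2)
      (by norm_num : (0 : ℝ) ≤ 1 / 2) (by norm_num)
    have ha1 : (1 - lam) * da.1 = a := congrArg Prod.fst hae
    have ha2 : (1 - lam) * da.2 = c := congrArg Prod.snd hae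
    have hb1 : (1 - lam) * db.1 = b := congrArg Prod.fst hbe
    have hb2 : (1 - lam) * db.2 = c := congrArg Prod.snd hbe
    have h22 : da.2 = db.2 := by
      have : (1 - lam) * da.2 = (1 - lam) * db.2 := by rw [ha2, hb2]
      exact mul_left_cancel₀ hm.ne' this
    have hpt : (1 / 2 : ℝ) • db + (1 / 2 : ℝ) • (-da) = ((db.1 - da.1) / 2, (0 : ℝ)) := by
      ext
      · simp; ring
      · simp [h22]
    rw [hpt] at hmid
    have := hRmax _ hmid
    rw [← ha1, ← hb1]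
    nlinarith
  have hsw := sweep_area ((1 - lam) • D) hAc hAconv (lam * r) (2 * (1 - lam) * R)
    (mul_nonneg hl0.le hr) (by positivity) hch
  refine le_trans (le_of_eq ?_) hsw
  rw [Measure.addHaar_smul, ← mul_assoc, ← ENNReal.ofReal_mul (by positivity)]
  congr 2
  have hfr : Module.finrank ℝ (ℝ × ℝ) = 2 := by simp
  rw [hfr, abs_of_nonneg (by positivity)]
  field_simp

end Vale.Agent.P243
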