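import Vale.Agent.P243.Sym2

/-! The weighted length of a chord of a centrally symmetric convex body. -/

open Set MeasureTheory
open scoped Pointwise

namespace Vale.Agent.P243

lemma zero_mem_interior (K : Set (ℝ × ℝ × ℝ)) (hconv : Convex ℝ K) (hsymm : ∀ x ∈ K, -x ∈ K)
    (hint : (interior K).Nonempty) : (0 : ℝ × ℝ × ℝ) ∈ interior K := by
  obtain ⟨x, hx⟩ := hint
  have hneg : (Homeomorph.neg (ℝ × ℝ × ℝ)) '' K = K := by
    ext p
    constructor
    · rintro ⟨q, hq, rfl⟩
      exact hsymm q hq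
    · intro hp
      exact ⟨-p, hsymm p hp, neg_neg p⟩
  have hx' : -x ∈ interior K := by
    have h1 : -x ∈ (Homeomorph.neg (ℝ × ℝ × ℝ)) '' interior K := ⟨x, hx, rfl⟩
    rw [Homeomorph.image_interior, hneg] at h1
    exact h1
  have := hconv.interior hx hx' (by norm_num : (0 : ℝ) ≤ 1 / 2) (by norm_num : (0 : ℝ) ≤ 1 / 2)
    (by norm_num)
  simpa using this

lemma vsec_ends (K : Set (ℝ × ℝ × ℝ)) (hK : IsCompact K) (p : ℝ × ℝ) (hne : ∃ z, (z, p) ∈ K) :
    ∃ a b : ℝ, (a, p) ∈ K ∧ (b, p) ∈ K ∧ ∀ z, (z, p) ∈ K → z ∈ Icc a b := by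
  have hcomp : IsCompact (K ∩ {q | q.2 = p}) :=
    hK.inter_right (isClosed_eq continuous_snd continuous_const)
  obtain ⟨x0, hx0⟩ := hne
  have hne' : (K ∩ {q | q.2 = p}).Nonempty := ⟨(x0, p), hx0, rfl⟩
  obtain ⟨pm, hpm, hmin⟩ := hcomp.exists_isMinOn hne' continuous_fst.continuousOn
  obtain ⟨pM, hpM, hmax⟩ := hcomp.exists_isMaxOn hne' continuous_fst.continuousOn
  refine ⟨pm.1, pM.1, ?_, ?_, ?_⟩
  · have : pm = (pm.1, p) := Prod.ext rfl hpm.2
    rw [← this]; exact hpm.1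
  · have : pM = (pM.1, p) := Prod.ext rfl hpM.2
    rw [← this]; exact hpM.1
  · intro t ht
    exact ⟨hmin ⟨ht, rfl⟩, hmax ⟨ht, rfl⟩⟩

/-- the chord bound, over a point of the positive horizontal axis -/
lemma line_bound0 (K : Set (ℝ × ℝ × ℝ)) (hconv : Convex ℝ K) (hcomp : IsCompact K)
    (hsymm : ∀ x ∈ K, -x ∈ K) (hint : (interior K).Nonempty) (r : ℝ) (hr : 0 ≤ r) :
    (3 * volume ((fun z : ℝ => (z, r, (0 : ℝ))) ⁻¹' K)
      + 2 * volume ((fun z : ℝ => (z, r, (0 : ℝ))) ⁻¹' (K \ ((1 / 2 : ℝ) • K))))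
        * volume (Prod.snd '' K) ≤ 12 * volume K := by
  by_cases hne : ∃ z, (z, r, (0 : ℝ)) ∈ K
  swap
  · have e1 : (fun z : ℝ => (z, r, (0 : ℝ))) ⁻¹' K = ∅ := by
      ext z
      simp only [mem_preimage, mem_empty_iff_false, iff_false]
      exact fun hz => hne ⟨z, hz⟩
    have e2 : (fun z : ℝ => (z, r, (0 : ℝ))) ⁻¹' (K \ ((1 / 2 : ℝ) • K)) = ∅ := by
      ext z
      simp only [mem_preimage, mem_empty_iff_false, iff_false]
      exact fun hz => hne ⟨z, hz.1⟩
    rw [e1, e2]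
    simp
  obtain ⟨z0, z1, hz0, hz1, hz⟩ := vsec_ends K hcomp (r, 0) hne
  have hz01 : z0 ≤ z1 := (hz z0 hz0).2
  set ℓ : ℝ := z1 - z0 with hℓ
  have hℓ0 : 0 ≤ ℓ := sub_nonneg.2 hz01
  set D : Set (ℝ × ℝ) := Prod.snd '' K with hD
  have hDc : IsCompact D := hcomp.image continuous_snd
  obtain ⟨R0, R, _, hRmem, hRmax⟩ := hsec_ends D hDc 0 ⟨r, ⟨_, hz0, rfl⟩⟩
  have hrR : r ≤ R := (hRmax r ⟨_, hz0, rfl⟩).2
  have hRpos : 0 < R := by
    have h0 := zero_mem_interior K hconv hsymm hint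
    rw [mem_interior_iff_mem_nhds, Metric.mem_nhds_iff] at h0
    obtain ⟨ε, hε, hball⟩ := h0
    have hmem : ((0 : ℝ), ε / 2, (0 : ℝ)) ∈ K := by
      apply hball
      rw [Metric.mem_ball, dist_zero_right]
      simp only [Prod.norm_def, norm_zero, Real.norm_eq_abs]
      rw [abs_of_pos (by linarith : 0 < ε / 2)]
      simp only [sup_of_le_left, sup_of_le_right, (by linarith : (0 : ℝ) ≤ ε / 2)]
      linarith
    have := (hRmax (ε / 2) ⟨_, hmem, rfl⟩).2
    linarith
  obtain ⟨kR, hkR, hkRe⟩ := hRmem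
  have hkR' : (kR.1, R, (0 : ℝ)) ∈ K := by
    have : kR = (kR.1, R, (0 : ℝ)) := Prod.ext rfl hkRe
    rw [← this]; exact hkR
  have hz1' : (z0 + ℓ, r, (0 : ℝ)) ∈ K := by
    have : z0 + ℓ = z1 := by rw [hℓ]; ring
    rw [this]; exact hz1
  have hV := vol_lower K hconv hcomp hsymm r R ℓ z0 hr hRpos (fun x hx => (hRmax x hx).2)
    hz0 hz1' hℓ0
  have hf : volume ((fun z : ℝ => (z, r, (0 : ℝ))) ⁻¹' K) ≤ ENNReal.ofReal ℓ := by
    rw [hℓ, ← Real.volume_Icc]
    exact measure_mono (fun z hz' => hz z hz')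
  have hs0 : 0 ≤ r / R := div_nonneg hr hRpos.le
  have key : 3 * volume ((fun z : ℝ => (z, r, (0 : ℝ))) ⁻¹' K)
      + 2 * volume ((fun z : ℝ => (z, r, (0 : ℝ))) ⁻¹' (K \ ((1 / 2 : ℝ) • K)))
      ≤ 12 * ENNReal.ofReal (ℓ * (2 + r / R) / 6) := by
    have h12 : (12 : ENNReal) = ENNReal.ofReal 12 := by simp
    have h3 : (3 : ENNReal) = ENNReal.ofReal 3 := by simp
    have h2 : (2 : ENNReal) = ENNReal.ofReal 2 := by simp
    rcases le_or_gt (2 * r) R with hcase | hcase
    · -- the half body has a long chord over the point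
      have hRr : 0 < R - r := by linarith
      set a : ℝ := (R - 2 * r) / (R - r) with ha
      set b : ℝ := r / (R - r) with hb
      have ha0 : 0 ≤ a := div_nonneg (by linarith) hRr.le
      have hb0 : 0 ≤ b := div_nonneg hr hRr.le
      have hab : a + b = 1 := by rw [ha, hb]; field_simp; ring
      have ha1 : a ≤ 1 := by linarith
      have hx2 : a * r + b * R = 2 * r := by rw [ha, hb]; field_simp; ring
      have hhalf : ∀ z, (z, r, (0 : ℝ)) ∈ K →
          ((a * z + b * kR.1) / 2, r, (0 : ℝ)) ∈ (1 / 2 : ℝ) • K := by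
        intro z hzK
        refine ⟨_, hconv hzK hkR' ha0 hb0 hab, ?_⟩
        ext
        · simp; ring
        · simp; linarith
        · simp
      have hKh : Convex ℝ ((1 / 2 : ℝ) • K) := hconv.smul _
      have hsubK : (1 / 2 : ℝ) • K ⊆ K := by
        rintro _ ⟨k, hk, rfl⟩
        have h0 : (0 : ℝ × ℝ × ℝ) ∈ K := interior_subset (zero_mem_interior K hconv hsymm hint)
        have := hconv hk h0 (by norm_num : (0 : ℝ) ≤ 1 / 2) (by norm_num : (0 : ℝ) ≤ 1 / 2)
          (by norm_num)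
        simpa using this
      set w0 : ℝ := (a * z0 + b * kR.1) / 2 with hw0
      set w1 : ℝ := (a * z1 + b * kR.1) / 2 with hw1
      have hw01 : w0 ≤ w1 := by
        rw [hw0, hw1]
        have : a * z0 ≤ a * z1 := mul_le_mul_of_nonneg_left hz01 ha0
        linarith
      have hI : ∀ w ∈ Icc w0 w1, (w, r, (0 : ℝ)) ∈ (1 / 2 : ℝ) • K := by
        intro w hw
        have p0 := hhalf z0 hz0
        have p1 := hhalf z1 hz1
        rcases eq_or_lt_of_le hw01 with h | h
        · have : w = w0 := le_antisymm (by rw [h]; exact hw.2) hw.1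
          rw [this]; exact p0
        · have hpos : 0 < w1 - w0 := sub_pos.2 h
          have ht : (w - w0) / (w1 - w0) ∈ Icc (0 : ℝ) 1 :=
            ⟨div_nonneg (sub_nonneg.2 hw.1) hpos.le, (div_le_one hpos).2 (by linarith [hw.2])⟩
          have := hKh.add_smul_sub_mem p0 p1 ht
          convert this using 1
          ext
          · simp only [Prod.fst_add, Prod.smul_fst, Prod.fst_sub, smul_eq_mul]
            field_simp
            ring
          · simp
          · simp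
      have hsub : (fun z : ℝ => (z, r, (0 : ℝ))) ⁻¹' (K \ ((1 / 2 : ℝ) • K))
          ⊆ Icc z0 z1 \ Icc w0 w1 := by
        intro z hz'
        exact ⟨hz z hz'.1, fun hw => hz'.2 (hI z hw)⟩
      have hII : Icc w0 w1 ⊆ Icc z0 z1 := fun w hw => hz w (hsubK (hI w hw))
      have hψ : volume ((fun z : ℝ => (z, r, (0 : ℝ))) ⁻¹' (K \ ((1 / 2 : ℝ) • K)))
          ≤ ENNReal.ofReal (ℓ * (1 - a / 2)) := by
        refine (measure_mono hsub).trans ?_
        rw [measure_sdiff hII measurableSet_Icc.nullMeasurableSet (by simp), Real.volume_Icc,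
          Real.volume_Icc, ← ENNReal.ofReal_sub _ (sub_nonneg.2 hw01)]
        apply ENNReal.ofReal_le_ofReal
        rw [hw0, hw1, hℓ]
        apply le_of_eq
        ring
      calc 3 * volume ((fun z : ℝ => (z, r, (0 : ℝ))) ⁻¹' K)
          + 2 * volume ((fun z : ℝ => (z, r, (0 : ℝ))) ⁻¹' (K \ ((1 / 2 : ℝ) • K)))
          ≤ 3 * ENNReal.ofReal ℓ + 2 * ENNReal.ofReal (ℓ * (1 - a / 2)) := by gcongr
        _ = ENNReal.ofReal (3 * ℓ + 2 * (ℓ * (1 - a / 2))) := by
            rw [h3, h2, ← ENNReal.ofReal_mul (by norm_num), ← ENNReal.ofReal_mul (by norm_num),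
              ← ENNReal.ofReal_add (by positivity)
                (mul_nonneg (by norm_num) (mul_nonneg hℓ0 (by linarith)))]
        _ ≤ ENNReal.ofReal (12 * (ℓ * (2 + r / R) / 6)) := by
            apply ENNReal.ofReal_le_ofReal
            have h5 : 1 - a ≤ 2 * (r / R) := by
              have : 1 - a = b := by linarith
              rw [this, hb, div_le_iff₀ hRr]
              have h6 : r = r / R * R := by field_simp
              nlinarith
            nlinarith
        _ = 12 * ENNReal.ofReal (ℓ * (2 + r / R) / 6) := by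
            rw [h12, ← ENNReal.ofReal_mul (by norm_num)]
    · have hψ : volume ((fun z : ℝ => (z, r, (0 : ℝ))) ⁻¹' (K \ ((1 / 2 : ℝ) • K)))
          ≤ ENNReal.ofReal ℓ := by
        refine le_trans (measure_mono ?_) hf
        intro z hz'
        exact hz'.1
      calc 3 * volume ((fun z : ℝ => (z, r, (0 : ℝ))) ⁻¹' K)
          + 2 * volume ((fun z : ℝ => (z, r, (0 : ℝ))) ⁻¹' (K \ ((1 / 2 : ℝ) • K)))
          ≤ 3 * ENNReal.ofReal ℓ + 2 * ENNReal.ofReal ℓ := by gcongr
        _ = ENNReal.ofReal (3 * ℓ + 2 * ℓ) := by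
            rw [h3, h2, ← ENNReal.ofReal_mul (by norm_num), ← ENNReal.ofReal_mul (by norm_num),
              ← ENNReal.ofReal_add (by positivity) (by positivity)]
        _ ≤ ENNReal.ofReal (12 * (ℓ * (2 + r / R) / 6)) := by
            apply ENNReal.ofReal_le_ofReal
            have h5 : 1 / 2 ≤ r / R := by
              rw [le_div_iff₀ hRpos]; linarith
            nlinarith
        _ = 12 * ENNReal.ofReal (ℓ * (2 + r / R) / 6) := by
            rw [h12, ← ENNReal.ofReal_mul (by norm_num)]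
  calc _ ≤ 12 * ENNReal.ofReal (ℓ * (2 + r / R) / 6) * volume D := by gcongr
    _ = 12 * (ENNReal.ofReal (ℓ * (2 + r / R) / 6) * volume D) := by rw [mul_assoc]
    _ ≤ 12 * volume K := by gcongr

end Vale.Agent.P243
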