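import Vale.Agent.P243.Sym3

/-! The chord bound over an arbitrary point, and the bound for one cylinder. -/

open Set MeasureTheory
open scoped Pointwise

namespace Vale.Agent.P243

/-- a similarity of the plane taking `y` to the positive horizontal axis -/
noncomputable def rotEquiv (y : ℝ × ℝ) (hy : y.1 ^ 2 + y.2 ^ 2 ≠ 0) : (ℝ × ℝ) ≃ₗ[ℝ] (ℝ × ℝ) where
  toFun p := (y.1 * p.1 + y.2 * p.2, -y.2 * p.1 + y.1 * p.2)
  map_add' p q := by
    ext
    · simp only [Prod.fst_add, Prod.snd_add]; ring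
    · simp only [Prod.fst_add, Prod.snd_add]; ring
  map_smul' t p := by
    ext
    · simp only [Prod.smul_fst, Prod.smul_snd, smul_eq_mul, RingHom.id_apply]; ring
    · simp only [Prod.smul_fst, Prod.smul_snd, smul_eq_mul, RingHom.id_apply]; ring
  invFun q := ((y.1 * q.1 - y.2 * q.2) / (y.1 ^ 2 + y.2 ^ 2),
    (y.2 * q.1 + y.1 * q.2) / (y.1 ^ 2 + y.2 ^ 2))
  left_inv p := by
    ext
    · simp only
      field_simp
      ring
    · simp only
      field_simp
      ring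
  right_inv q := by
    ext
    · simp only
      field_simp
      ring
    · simp only
      field_simp
      ring

lemma line_bound (K : Set (ℝ × ℝ × ℝ)) (hconv : Convex ℝ K) (hcomp : IsCompact K)
    (hsymm : ∀ x ∈ K, -x ∈ K) (hint : (interior K).Nonempty) (y : ℝ × ℝ) :
    (3 * volume ((fun z : ℝ => (z, y)) ⁻¹' K)
      + 2 * volume ((fun z : ℝ => (z, y)) ⁻¹' (K \ ((1 / 2 : ℝ) • K))))
        * volume (Prod.snd '' K) ≤ 12 * volume K := by
  by_cases hy : y.1 ^ 2 + y.2 ^ 2 = 0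
  · have h1 : y.1 = 0 := by nlinarith [sq_nonneg y.1, sq_nonneg y.2]
    have h2 : y.2 = 0 := by nlinarith [sq_nonneg y.1, sq_nonneg y.2]
    have : y = ((0 : ℝ), (0 : ℝ)) := Prod.ext h1 h2
    rw [this]
    exact line_bound0 K hconv hcomp hsymm hint 0 le_rfl
  set T := rotEquiv y hy with hT
  set N : ℝ := y.1 ^ 2 + y.2 ^ 2 with hN
  have hTy : T y = (N, 0) := by
    ext
    · simp only [hT, rotEquiv, LinearEquiv.coe_mk, LinearMap.coe_mk, AddHom.coe_mk, hN]; ring
    · simp only [hT, rotEquiv, LinearEquiv.coe_mk, LinearMap.coe_mk, AddHom.coe_mk]; ring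
  have hNpos : 0 ≤ N := by positivity
  set ΘL : (ℝ × ℝ × ℝ) →ₗ[ℝ] (ℝ × ℝ × ℝ) :=
    LinearMap.prodMap LinearMap.id (T : (ℝ × ℝ) →ₗ[ℝ] (ℝ × ℝ)) with hΘL
  have hΘapp : ∀ q : ℝ × ℝ × ℝ, ΘL q = (q.1, T q.2) := fun q => rfl
  have hΘinj : Function.Injective ΘL := by
    intro p q hpq
    rw [hΘapp, hΘapp] at hpq
    have h1 : p.1 = q.1 := (Prod.mk.inj hpq).1
    have h2 : T p.2 = T q.2 := (Prod.mk.inj hpq).2
    exact Prod.ext h1 (T.injective h2)
  have hΘc : Continuous ΘL := LinearMap.continuous_of_finiteDimensional ΘL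
  set K' : Set (ℝ × ℝ × ℝ) := ΘL '' K with hK'
  have hK'conv : Convex ℝ K' := hconv.linear_image ΘL
  have hK'comp : IsCompact K' := hcomp.image hΘc
  have hK'symm : ∀ x ∈ K', -x ∈ K' := by
    rintro _ ⟨k, hk, rfl⟩
    exact ⟨-k, hsymm k hk, map_neg _ _⟩
  have hK'int : (interior K').Nonempty := by
    set H : (ℝ × ℝ × ℝ) ≃ₜ (ℝ × ℝ × ℝ) :=
      Homeomorph.prodCongr (Homeomorph.refl ℝ) T.toContinuousLinearEquiv.toHomeomorph with hH
    have himg : H '' K = K' := rfl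
    rw [← himg, ← Homeomorph.image_interior]
    exact hint.image _
  have hmain := line_bound0 K' hK'conv hK'comp hK'symm hK'int N hNpos
  have e1 : (fun z : ℝ => (z, N, (0 : ℝ))) ⁻¹' K' = (fun z : ℝ => (z, y)) ⁻¹' K := by
    ext z
    simp only [mem_preimage]
    have : (z, N, (0 : ℝ)) = ΘL (z, y) := by rw [hΘapp, hTy]
    rw [this, hK', hΘinj.mem_set_image]
  have hhalf : (1 / 2 : ℝ) • K' = ΘL '' ((1 / 2 : ℝ) • K) := by
    rw [hK', Set.image_smul_comm ΘL (1 / 2 : ℝ) K (fun b => map_smul ΘL _ b)]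
  have e2 : (fun z : ℝ => (z, N, (0 : ℝ))) ⁻¹' (K' \ ((1 / 2 : ℝ) • K'))
      = (fun z : ℝ => (z, y)) ⁻¹' (K \ ((1 / 2 : ℝ) • K)) := by
    ext z
    simp only [mem_preimage, mem_sdiff]
    have : (z, N, (0 : ℝ)) = ΘL (z, y) := by rw [hΘapp, hTy]
    rw [this, hhalf, hK', hΘinj.mem_set_image, hΘinj.mem_set_image]
  have e3 : Prod.snd '' K' = (T : (ℝ × ℝ) →ₗ[ℝ] (ℝ × ℝ)) '' (Prod.snd '' K) := by
    rw [hK', Set.image_image, Set.image_image]
    rfl
  have hdet : LinearMap.det ΘL = LinearMap.det (T : (ℝ × ℝ) →ₗ[ℝ] (ℝ × ℝ)) := by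
    rw [hΘL, LinearMap.det_prodMap, LinearMap.det_id, one_mul]
  set c : ENNReal := ENNReal.ofReal |LinearMap.det (T : (ℝ × ℝ) →ₗ[ℝ] (ℝ × ℝ))| with hc
  have hc0 : c ≠ 0 := by
    rw [hc, Ne, ENNReal.ofReal_eq_zero, not_le]
    exact abs_pos.2 (LinearEquiv.isUnit_det' T).ne_zero
  have hctop : c ≠ ⊤ := ENNReal.ofReal_ne_top
  have : (volume : Measure (ℝ × ℝ × ℝ)).IsAddHaarMeasure := by
    rw [Measure.volume_eq_prod]; infer_instance
  have e4 : volume K' = c * volume K := by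
    rw [hK', Measure.addHaar_image_linearMap, hdet]
  have e5 : volume (Prod.snd '' K') = c * volume (Prod.snd '' K) := by
    rw [e3, Measure.addHaar_image_linearMap]
  rw [e1, e2, e4, e5] at hmain
  have h6 : c * ((3 * volume ((fun z : ℝ => (z, y)) ⁻¹' K)
      + 2 * volume ((fun z : ℝ => (z, y)) ⁻¹' (K \ ((1 / 2 : ℝ) • K))))
        * volume (Prod.snd '' K)) ≤ c * (12 * volume K) := by
    calc _ = (3 * volume ((fun z : ℝ => (z, y)) ⁻¹' K)
      + 2 * volume ((fun z : ℝ => (z, y)) ⁻¹' (K \ ((1 / 2 : ℝ) • K))))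
        * (c * volume (Prod.snd '' K)) := by ring
      _ ≤ 12 * (c * volume K) := hmain
      _ = c * (12 * volume K) := by ring
  exact (ENNReal.mul_le_mul_iff_right hc0 hctop).1 h6

/-- the bound for one cylinder with vertical axis -/
lemma cyl_bound (K : Set (ℝ × ℝ × ℝ)) (hconv : Convex ℝ K) (hcomp : IsCompact K)
    (hsymm : ∀ x ∈ K, -x ∈ K) (hint : (interior K).Nonempty) (B : Set (ℝ × ℝ))
    (hB : MeasurableSet B) :
    (3 * volume (K ∩ Prod.snd ⁻¹' B) + 2 * volume ((K ∩ Prod.snd ⁻¹' B) \ ((1 / 2 : ℝ) • K)))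
        * volume (Prod.snd '' K) ≤ 12 * volume K * volume B := by
  have hKm : MeasurableSet K := hcomp.isClosed.measurableSet
  have hKhm : MeasurableSet ((1 / 2 : ℝ) • K) := (hcomp.smul _).isClosed.measurableSet
  have hS : MeasurableSet (K ∩ Prod.snd ⁻¹' B) := hKm.inter (measurable_snd hB)
  have hS' : MeasurableSet ((K ∩ Prod.snd ⁻¹' B) \ ((1 / 2 : ℝ) • K)) := hS.diff hKhm
  have hDfin : volume (Prod.snd '' K) ≠ ⊤ := (hcomp.image continuous_snd).measure_lt_top.ne
  have v1 : volume (K ∩ Prod.snd ⁻¹' B)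
      = ∫⁻ p, volume ((fun z : ℝ => (z, p)) ⁻¹' (K ∩ Prod.snd ⁻¹' B)) := by
    rw [Measure.volume_eq_prod, Measure.prod_apply_symm hS]
  have v2 : volume ((K ∩ Prod.snd ⁻¹' B) \ ((1 / 2 : ℝ) • K))
      = ∫⁻ p, volume ((fun z : ℝ => (z, p)) ⁻¹' ((K ∩ Prod.snd ⁻¹' B) \ ((1 / 2 : ℝ) • K))) := by
    rw [Measure.volume_eq_prod, Measure.prod_apply_symm hS']
  have m1 := measurable_measure_prodMk_right (μ := (volume : Measure ℝ)) hS
  have m2 := measurable_measure_prodMk_right (μ := (volume : Measure ℝ)) hS'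
  rw [v1, v2, ← lintegral_const_mul _ m1, ← lintegral_const_mul _ m2,
    ← lintegral_add_left (m1.const_mul _), ← lintegral_mul_const' _ _ hDfin]
  calc _ ≤ ∫⁻ p, B.indicator (fun _ => 12 * volume K) p := by
        apply lintegral_mono
        intro p
        by_cases hp : p ∈ B
        · rw [indicator_of_mem hp]
          have e1 : (fun z : ℝ => (z, p)) ⁻¹' (K ∩ Prod.snd ⁻¹' B)
              = (fun z : ℝ => (z, p)) ⁻¹' K := by
            ext z
            simp [hp]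
          have e2 : (fun z : ℝ => (z, p)) ⁻¹' ((K ∩ Prod.snd ⁻¹' B) \ ((1 / 2 : ℝ) • K))
              = (fun z : ℝ => (z, p)) ⁻¹' (K \ ((1 / 2 : ℝ) • K)) := by
            ext z
            simp [hp]
          simp only [e1, e2]
          exact line_bound K hconv hcomp hsymm hint p
        · rw [indicator_of_notMem hp]
          have e1 : (fun z : ℝ => (z, p)) ⁻¹' (K ∩ Prod.snd ⁻¹' B) = ∅ := by
            ext z
            simp [hp]
          have e2 : (fun z : ℝ => (z, p)) ⁻¹' ((K ∩ Prod.snd ⁻¹' B) \ ((1 / 2 : ℝ) • K)) = ∅ := by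
            ext z
            simp [hp]
          simp only [e1, e2]
          simp
    _ = 12 * volume K * volume B := by
        rw [lintegral_indicator hB, setLIntegral_const]

end Vale.Agent.P243
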