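import Vale.Agent.P243.Sym4

/-! Cylinder coverings of centrally symmetric convex bodies. -/

open Set MeasureTheory
open scoped Pointwise

namespace Vale.Agent.P243

theorem symmetric_core {ι : Type*} [Fintype ι] (K : Set (ℝ × ℝ × ℝ)) (hconv : Convex ℝ K)
    (hcomp : IsCompact K) (hint : (interior K).Nonempty) (hsymm : ∀ x ∈ K, -x ∈ K)
    (e : ι → (ℝ × ℝ × ℝ) ≃L[ℝ] (ℝ × ℝ × ℝ)) (B : ι → Set (ℝ × ℝ))
    (hB : ∀ i, MeasurableSet (B i)) (hcov : K ⊆ ⋃ i, {x | (e i x).2 ∈ B i}) :
    19 / 48 ≤ ∑ i, volume (B i) / volume ((fun x => (e i x).2) '' K) := by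
  have hHaar : (volume : Measure (ℝ × ℝ × ℝ)).IsAddHaarMeasure := by
    rw [Measure.volume_eq_prod]; infer_instance
  have hVpos : 0 < volume K :=
    lt_of_lt_of_le (isOpen_interior.measure_pos volume hint) (measure_mono interior_subset)
  have hVfin : volume K ≠ ⊤ := hcomp.measure_lt_top.ne
  have hKhm : MeasurableSet ((1 / 2 : ℝ) • K) := (hcomp.smul _).isClosed.measurableSet
  set S : ι → Set (ℝ × ℝ × ℝ) := fun i => K ∩ {x | (e i x).2 ∈ B i} with hS
  set w : ι → ENNReal := fun i => 3 * volume (S i) + 2 * volume (S i \ ((1 / 2 : ℝ) • K)) with hw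
  -- one cylinder
  have hA : ∀ i, w i ≤ 12 * volume K * (volume (B i) / volume ((fun x => (e i x).2) '' K)) := by
    intro i
    set Ki : Set (ℝ × ℝ × ℝ) := e i '' K with hKi
    have c1 : Convex ℝ Ki := hconv.linear_image (e i).toLinearEquiv.toLinearMap
    have c2 : IsCompact Ki := hcomp.image (e i).continuous
    have c3 : ∀ x ∈ Ki, -x ∈ Ki := by
      rintro _ ⟨k, hk, rfl⟩
      exact ⟨-k, hsymm k hk, map_neg _ _⟩
    have c4 : (interior Ki).Nonempty := by
      have : (e i).toHomeomorph '' K = Ki := rfl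
      rw [← this, ← Homeomorph.image_interior]
      exact hint.image _
    have hb := cyl_bound Ki c1 c2 c3 c4 (B i) (hB i)
    have einj : Function.Injective (e i) := (e i).injective
    have e1 : Ki ∩ Prod.snd ⁻¹' B i = e i '' S i := by
      ext p
      constructor
      · rintro ⟨⟨k, hk, rfl⟩, hp⟩
        exact ⟨k, ⟨hk, hp⟩, rfl⟩
      · rintro ⟨k, ⟨hk, hp⟩, rfl⟩
        exact ⟨⟨k, hk, rfl⟩, hp⟩
    have e2 : (1 / 2 : ℝ) • Ki = e i '' ((1 / 2 : ℝ) • K) := by
      rw [hKi, Set.image_smul_comm (e i) (1 / 2 : ℝ) K (fun b => map_smul (e i) _ b)]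
    have e3 : (Ki ∩ Prod.snd ⁻¹' B i) \ ((1 / 2 : ℝ) • Ki) = e i '' (S i \ ((1 / 2 : ℝ) • K)) := by
      rw [e1, e2, Set.image_sdiff einj]
    have e4 : Prod.snd '' Ki = (fun x => (e i x).2) '' K := by
      rw [hKi, Set.image_image]
    set c : ENNReal := ENNReal.ofReal |LinearMap.det ((e i : (ℝ × ℝ × ℝ) →L[ℝ] (ℝ × ℝ × ℝ)) :
      (ℝ × ℝ × ℝ) →ₗ[ℝ] (ℝ × ℝ × ℝ))| with hc
    have hvol : ∀ X : Set (ℝ × ℝ × ℝ), volume (e i '' X) = c * volume X := fun X =>
      Measure.addHaar_image_continuousLinearEquiv volume (e i) X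
    have hctop : c ≠ ⊤ := ENNReal.ofReal_ne_top
    have hc0 : c ≠ 0 := by
      intro h0
      have h1 : volume Ki = 0 := by rw [hKi, hvol, h0, zero_mul]
      have h2 : 0 < volume Ki :=
        lt_of_lt_of_le (isOpen_interior.measure_pos volume c4) (measure_mono interior_subset)
      rw [h1] at h2
      exact lt_irrefl _ h2
    rw [e3, e1, e4, hvol, hvol, hKi, hvol] at hb
    set Di : Set (ℝ × ℝ) := (fun x => (e i x).2) '' K with hDi
    have hDfin : volume Di ≠ ⊤ :=
      (hcomp.image (continuous_snd.comp (e i).continuous)).measure_lt_top.ne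
    have hDpos : volume Di ≠ 0 := by
      have hopen : IsOpen ((fun x => (e i x).2) '' interior K) := by
        have : IsOpenMap (fun x => (e i x).2) :=
          isOpenMap_snd.comp (e i).toHomeomorph.isOpenMap
        exact this _ isOpen_interior
      exact (lt_of_lt_of_le (hopen.measure_pos volume (hint.image _))
        (measure_mono (image_mono interior_subset))).ne'
    have h6 : c * (w i * volume Di) ≤ c * (12 * volume K * volume (B i)) := by
      calc c * (w i * volume Di)
          = (3 * (c * volume (S i)) + 2 * (c * volume (S i \ ((1 / 2 : ℝ) • K)))) * volume Di := by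
            simp only [hw]; ring
        _ ≤ 12 * (c * volume K) * volume (B i) := hb
        _ = c * (12 * volume K * volume (B i)) := by ring
    have h7 : w i * volume Di ≤ 12 * volume K * volume (B i) :=
      (ENNReal.mul_le_mul_iff_right hc0 hctop).1 h6
    rw [← mul_div_assoc]
    exact (ENNReal.le_div_iff_mul_le (Or.inl hDpos) (Or.inl hDfin)).2 h7
  -- the total weight
  set v : ENNReal := volume ((1 / 2 : ℝ) • K) with hv
  have hV8 : volume K = 8 * v := by
    rw [hv, Measure.addHaar_smul]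
    have hfr : Module.finrank ℝ (ℝ × ℝ × ℝ) = 3 := by simp
    rw [hfr, ← mul_assoc]
    have : (8 : ENNReal) * ENNReal.ofReal |(1 / 2 : ℝ) ^ 3| = 1 := by
      have h8 : (8 : ENNReal) = ENNReal.ofReal 8 := by simp
      rw [h8, ← ENNReal.ofReal_mul (by norm_num)]
      norm_num
    rw [this, one_mul]
  have hv0 : v ≠ 0 := by
    intro h0
    rw [hV8, h0, mul_zero] at hVpos
    exact lt_irrefl _ hVpos
  have hvfin : v ≠ ⊤ := (hcomp.smul _).measure_lt_top.ne
  have hsubK : (1 / 2 : ℝ) • K ⊆ K := by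
    rintro _ ⟨k, hk, rfl⟩
    have h0 : (0 : ℝ × ℝ × ℝ) ∈ K := interior_subset (zero_mem_interior K hconv hsymm hint)
    have := hconv hk h0 (by norm_num : (0 : ℝ) ≤ 1 / 2) (by norm_num : (0 : ℝ) ≤ 1 / 2)
      (by norm_num)
    simpa using this
  have hshell : volume (K \ ((1 / 2 : ℝ) • K)) = 7 * v := by
    have h1 : volume (K \ ((1 / 2 : ℝ) • K)) + v = volume K := by
      have := measure_sdiff_add_inter (μ := volume) K hKhm
      rwa [inter_eq_self_of_subset_right hsubK] at this
    rw [hV8] at h1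
    have h2 : (8 : ENNReal) * v = 7 * v + v := by ring
    rw [h2] at h1
    exact (ENNReal.add_left_inj hvfin).1 h1
  have hB1 : volume K ≤ ∑ i, volume (S i) := by
    refine le_trans (measure_mono ?_) (measure_iUnion_fintype_le volume S)
    intro x hx
    obtain ⟨i, hi⟩ := mem_iUnion.1 (hcov hx)
    exact mem_iUnion.2 ⟨i, hx, hi⟩
  have hB2 : volume (K \ ((1 / 2 : ℝ) • K)) ≤ ∑ i, volume (S i \ ((1 / 2 : ℝ) • K)) := by
    refine le_trans (measure_mono ?_) (measure_iUnion_fintype_le volume _)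
    intro x hx
    obtain ⟨i, hi⟩ := mem_iUnion.1 (hcov hx.1)
    exact mem_iUnion.2 ⟨i, ⟨hx.1, hi⟩, hx.2⟩
  have hsum : 38 * v ≤ ∑ i, w i := by
    calc 38 * v = 3 * (8 * v) + 2 * (7 * v) := by ring
      _ = 3 * volume K + 2 * volume (K \ ((1 / 2 : ℝ) • K)) := by rw [hV8, hshell]
      _ ≤ 3 * ∑ i, volume (S i) + 2 * ∑ i, volume (S i \ ((1 / 2 : ℝ) • K)) := by gcongr
      _ = ∑ i, w i := by
          simp only [hw]
          rw [Finset.sum_add_distrib, Finset.mul_sum, Finset.mul_sum]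
  set tot : ENNReal := ∑ i, volume (B i) / volume ((fun x => (e i x).2) '' K) with htot
  have hfinal : 38 * v ≤ 12 * (8 * v) * tot := by
    refine hsum.trans ?_
    rw [htot, Finset.mul_sum, ← hV8]
    exact Finset.sum_le_sum (fun i _ => hA i)
  have h9 : (2 * v) * 19 ≤ (2 * v) * (tot * 48) := by
    calc (2 * v) * 19 = 38 * v := by ring
      _ ≤ 12 * (8 * v) * tot := hfinal
      _ = (2 * v) * (tot * 48) := by ring
  have h10 : (19 : ENNReal) ≤ tot * 48 :=
    (ENNReal.mul_le_mul_iff_right (mul_ne_zero (by norm_num) hv0)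
      (ENNReal.mul_ne_top (by norm_num) hvfin)).1 h9
  exact (ENNReal.div_le_iff_le_mul (Or.inl (by norm_num)) (Or.inl (by norm_num))).2 h10

end Vale.Agent.P243
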